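import Vale.Agent.P161.Finite

namespace Vale.Agent.P161

open MeasureTheory unitInterval Classical Filter Topology
open Vale.Agent.P143 (BM iidUniform)

def Lip {N : Type*} (X : (N → I) → ℝ) (c : N → ℝ) (S : Finset N) : Prop :=
  ∀ b b', |X b - X b'| ≤ ∑ p ∈ S, c p * |(b p : ℝ) - b' p|

lemma Lip.eq {N : Type*} {X : (N → I) → ℝ} {c : N → ℝ} {S : Finset N} (h : Lip X c S)
    {b b' : N → I} (hb : ∀ p ∈ S, b p = b' p) : X b = X b' := by
  have := h b b'
  rw [Finset.sum_eq_zero fun p hp => by rw [hb p hp, sub_self, abs_zero, mul_zero]] at this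
  exact sub_eq_zero.1 (abs_nonpos_iff.1 this)

lemma bm_sq {X : Type*} [MeasurableSpace X] {F : X → ℝ} (h : BM F) : BM fun x => F x ^ 2 := by
  simpa [sq] using h.mul h

lemma efron_stein {N : Type*} [DecidableEq N] {c : N → ℝ} (hc : ∀ p, 0 ≤ c p) (Out : Finset N) :
    ∀ (All : Finset N) (X : (N → I) → ℝ), BM X → Lip X c All →
      ∃ F, BM F ∧ Lip F c (All \ Out) ∧
        ∫ b, (X b - F b) ^ 2 ∂(iidUniform N) ≤ ∑ p ∈ Out, c p ^ 2 := by
  induction Out using Finset.induction_on with
  | empty => exact fun All X h1 h2 => ⟨X, h1, by simpa using h2, by simp⟩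
  | insert i Out hi ih =>
    intro All X h1 h2
    have hj : BM fun q : (N → I) × I => X (Function.update q.1 i q.2) := h1.comp measurable_update'
    have hs : ∀ b, BM fun t : I => X (Function.update b i t) := fun b =>
      hj.comp measurable_prodMk_left
    set X1 : (N → I) → ℝ := fun b => ∫ t : I, X (Function.update b i t) with hX1
    have b1 : BM X1 := hj.integral_right
    have bound : ∀ {f : I → ℝ} {C : ℝ}, (∀ t, |f t| ≤ C) → |∫ t, f t| ≤ C := fun {f C} h => by
      simpa using norm_integral_le_of_norm_le_const (μ := (volume : Measure I)) (f := f) (C := C)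
        (Eventually.of_forall h)
    have l1 : Lip X1 c (All.erase i) := by
      intro b b'
      simp only [hX1]
      rw [← integral_sub ((hs b).integrable _) ((hs b').integrable _)]
      refine bound fun t => (h2 _ _).trans (le_of_eq ?_)
      rw [← Finset.sum_erase All (a := i) (by simp)]
      exact Finset.sum_congr rfl fun p hp => by
        simp only [Function.update_of_ne (Finset.mem_erase.1 hp).1]
    have d1 : ∀ b, |X b - X1 b| ≤ c i := by
      intro b
      have : X b - X1 b = ∫ t : I, (X b - X (Function.update b i t)) := by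
        rw [integral_sub (integrable_const _) ((hs b).integrable _)]; simp [hX1]
      rw [this]
      refine bound fun t => (h2 _ _).trans ?_
      refine (Finset.sum_le_sum (g := fun p => if p = i then c i else 0) fun p _ => ?_).trans ?_
      · split_ifs with h
        · subst h
          exact mul_le_of_le_one_right (hc p) (abs_le_one (b p).2 (Function.update b p t p).2)
        · simp [Function.update_of_ne h]
      · rw [Finset.sum_ite_eq']; split_ifs; exacts [le_rfl, hc i]
    obtain ⟨F, f1, f2, f3⟩ := ih _ X1 b1 l1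
    refine ⟨F, f1, by rwa [Finset.sdiff_insert, ← Finset.erase_sdiff_comm], ?_⟩
    have cross : ∫ b, (X b - X1 b) * (X1 b - F b) ∂(iidUniform N) = 0 := by
      rw [integral_update i ((h1.sub b1).mul (b1.sub f1))]
      refine integral_eq_zero_of_ae (Eventually.of_forall fun b => ?_)
      have e1 : ∀ t, X1 (Function.update b i t) = X1 b := fun t =>
        l1.eq fun p hp => Function.update_of_ne (Finset.mem_erase.1 hp).1 _ _
      have e2 : ∀ t, F (Function.update b i t) = F b := fun t =>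
        f2.eq fun p hp => Function.update_of_ne
          (Finset.mem_erase.1 (Finset.mem_sdiff.1 hp).1).1 _ _
      simp only [e1, e2, integral_mul_const, Pi.zero_apply]
      rw [integral_sub ((hs b).integrable _) (integrable_const _)]
      simp [hX1]
    have split : ∀ b, (X b - F b) ^ 2 = (X b - X1 b) ^ 2 + 2 * ((X b - X1 b) * (X1 b - F b)) +
        (X1 b - F b) ^ 2 := fun b => by ring
    have i1 := (bm_sq (h1.sub b1)).integrable (iidUniform N)
    have i2 := ((BM.const 2).mul ((h1.sub b1).mul (b1.sub f1))).integrable (iidUniform N)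
    have i3 := (bm_sq (b1.sub f1)).integrable (iidUniform N)
    simp only [split]
    rw [integral_add (i1.fun_add i2) i3, integral_add i1 i2, integral_const_mul, cross,
      Finset.sum_insert hi]
    have : ∫ b, (X b - X1 b) ^ 2 ∂(iidUniform N) ≤ c i ^ 2 := by
      refine (integral_mono i1 (integrable_const (c i ^ 2)) fun b => ?_).trans (by simp)
      exact sq_le_sq' (abs_le.1 (d1 b)).1 (abs_le.1 (d1 b)).2
    linarith

lemma integral_abs_le {X : Type*} [MeasurableSpace X] (μ : Measure X) [IsProbabilityMeasure μ]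
    {F : X → ℝ} (hF : BM F) {δ : ℝ} (hδ : 0 < δ) :
    ∫ x, |F x| ∂μ ≤ δ + (∫ x, F x ^ 2 ∂μ) / δ := by
  have i := (bm_sq hF).integrable μ
  rw [← integral_div]
  refine (integral_mono (hF.abs.integrable μ) ((integrable_const δ).add (i.div_const δ))
    fun x => ?_).trans (le_of_eq ?_)
  · simp only [Pi.add_apply]
    rw [← sq_abs, ← sub_le_iff_le_add', le_div_iff₀ hδ]
    nlinarith [sq_nonneg (|F x| - δ), abs_nonneg (F x)]
  · simp only [Pi.add_apply]
    rw [integral_add (integrable_const δ) (i.div_const δ)]; simp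

variable {V : Type*} {G : SimpleGraph V} {θ ε r C : ℝ} {D : Finset V}

noncomputable def inn (ε : ℝ) (m : (V → ℝ) → V → ℝ) (lt : V → V → Prop) (y : V × ℕ → ℝ)
    (i : V × ℕ) : I :=
  Set.projIcc 0 1 zero_le_one (cdfF ε (m (state ε lt y i) i.1) (y i))

lemma Par.inn_coe (h : Par G θ ε r C) (lt : V → V → Prop) {y : V × ℕ → ℝ}
    (hy : ∀ i, y i ∈ Set.Icc (0 : ℝ) 1) (i : V × ℕ) :
    (inn ε (mI G θ D) lt y i : ℝ) = cdfF ε (mI G θ D (state ε lt y i) i.1) (y i) := by
  unfold inn
  rw [Set.projIcc_of_mem _ (cdfF_mem h.hε (mI_mem h.hθ _ _ _) (hy i))]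

lemma Par.Ysol_inn (h : Par G θ ε r C) (lt : V → V → Prop) {y : V × ℕ → ℝ}
    (hy : ∀ i, y i ∈ Set.Icc (0 : ℝ) 1) : Ysol ε (mI G θ D) lt (inn ε (mI G θ D) lt y) = y := by
  refine h.fixed_unique hy (funext fun i => ?_)
  rw [step, h.inn_coe lt hy, Qf_cdfF h.hε (mI_mem h.hθ _ _ _) (hy i)]

lemma Par.inn_Ysol (h : Par G θ ε r C) (lt : V → V → Prop) (b : V × ℕ → I) :
    inn ε (mI G θ D) lt (Ysol ε (mI G θ D) lt b) = b := by
  funext i
  apply Subtype.ext
  rw [h.inn_coe lt h.Ysol_mem]
  conv_lhs => enter [3]; rw [h.Ysol_fixed]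
  exact (Qf_spec h.hε (mI_mem h.hθ _ _ _) (b i).2).2

lemma measurable_inn (lt : V → V → Prop) : Measurable (inn ε (mI G θ D) lt) := by
  refine measurable_pi_iff.2 fun i => continuous_projIcc.measurable.comp ?_
  have := measurable_mstate (G := G) (θ := θ) (ε := ε) (D := D) lt i
  unfold cdfF
  fun_prop

lemma inn_congr {lt : V → V → Prop} {L : ℕ} {y y' : V × ℕ → ℝ}
    (h : ∀ p ∈ D ×ˢ Finset.range L, y p = y' p) :
    ∀ p ∈ D ×ˢ Finset.range L, inn ε (mI G θ D) lt y p = inn ε (mI G θ D) lt y' p := by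
  intro p hp
  unfold inn
  rw [h p hp, mI_state_congr fun q hq => h q
    (closed_box lt L p hp q.1 (mem_below.1 hq).1 q.2 (mem_below.1 hq).2)]

noncomputable def en (G : SimpleGraph V) (θ ε : ℝ) (lt : V → V → Prop) (D : Finset V)
    (i : V × ℕ) : ℝ :=
  ∫ b, mI G θ D (state ε lt (Ysol ε (mI G θ D) lt b) i) i.1 ^ 2 ∂(iidUniform (V × ℕ))

variable {K : Type*} [LinearOrder K] {key : V → K}

lemma Par.bm_m (h : Par G θ ε r C) (D : Finset V) (lt : V → V → Prop) (i : V × ℕ) :
    BM fun y : V × ℕ → ℝ => mI G θ D (state ε lt y i) i.1 :=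
  BM.of_mem (measurable_mstate lt i) fun _ => mI_mem h.hθ _ _ _

lemma en_le_one (h : Par G θ ε r C) (lt : V → V → Prop) (D : Finset V) (i : V × ℕ) :
    en G θ ε lt D i ≤ 1 := by
  refine (integral_mono ((bm_sq ((h.bm_m D lt i).comp (h.measurable_Y D lt))).integrable _)
    (integrable_const 1) fun b => ?_).trans (by simp)
  exact pow_le_one₀ (mI_mem h.hθ _ _ _).1 (mI_mem h.hθ _ _ _).2

lemma en_diff (h : Par G θ ε r C) (hkey : Function.Injective key) {o : V} (hD : GoodAt G o D)
    {D' : Finset V} (hsub : D ⊆ D') {i : V × ℕ} (hi : i.1 ∈ D) :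
    ∫ b, (mI G θ D' (state ε (fun f g => key f < key g)
          (Ysol ε (mI G θ D') (fun f g => key f < key g) b) i) i.1 -
        mI G θ D (state ε (fun f g => key f < key g)
          (Ysol ε (mI G θ D') (fun f g => key f < key g) b) i) i.1) ^ 2 ∂(iidUniform (V × ℕ)) =
      en G θ ε (fun f g => key f < key g) D' i - en G θ ε (fun f g => key f < key g) D i := by
  set lt : V → V → Prop := fun f g => key f < key g with hlt
  have h1 := orth h hkey hD hsub hi (h.bm_m D lt i) fun y y' hy => mI_state_congr hy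
  have h2 := law_transfer h hkey hD hsub (L := i.2 + 1) (bm_sq (h.bm_m D lt i))
    fun y y' hy => by
      rw [mI_state_congr fun p hp => hy p (Finset.mem_product.2 ⟨(mem_below.1 hp).1,
        Finset.mem_range.2 (by rcases (mem_below.1 hp).2 with h | h <;> omega)⟩)]
  have a := (h.bm_m D lt i).comp (h.measurable_Y D' lt)
  have b := (h.bm_m D' lt i).comp (h.measurable_Y D' lt)
  have e : ∀ x y : ℝ, (x - y) ^ 2 = x ^ 2 - 2 * (y * x) + y ^ 2 := fun x y => by ring
  simp only [e]
  rw [integral_add (((bm_sq b).sub ((BM.const 2).mul (a.mul b))).integrable _)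
    ((bm_sq a).integrable _), integral_sub ((bm_sq b).integrable _)
    (((BM.const 2).mul (a.mul b)).integrable _), integral_const_mul, h1, h2]
  simp only [en, sq]
  ring

lemma pair_bound (h : Par G θ ε r C) (hkey : Function.Injective key) {o : V} (hD : GoodAt G o D)
    {D' : Finset V} (hsub : D ⊆ D') {i : V × ℕ} (hi : i.1 ∈ D) (Out : Finset (V × ℕ))
    {δ δ' : ℝ} (hδ : 0 < δ) (hδ' : 0 < δ') :
    ∫ b, |Ysol ε (mI G θ D) (fun f g => key f < key g) b i -
        Ysol ε (mI G θ D') (fun f g => key f < key g) b i| ∂(iidUniform (V × ℕ)) ≤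
      2 * (δ + (∑ p ∈ Out, (2 ^ i.2 * 4 * r ^ G.dist p.1 i.1) ^ 2) / δ) +
      ∑ p ∈ (D ×ˢ Finset.range (i.2 + 1)) \ Out, (2 ^ i.2 * 4 * r ^ G.dist p.1 i.1) *
        (δ' + (en G θ ε (fun f g => key f < key g) D' p -
          en G θ ε (fun f g => key f < key g) D p) / δ') := by
  set lt : V → V → Prop := fun f g => key f < key g with hlt
  have hr := h.hr
  set c : V × ℕ → ℝ := fun p => 2 ^ i.2 * 4 * r ^ G.dist p.1 i.1 with hc
  have c0 : ∀ p, 0 ≤ c p := fun p => by simp only [hc]; positivity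
  have bX : ∀ D : Finset V, BM fun b => Ysol ε (mI G θ D) lt b i := fun D =>
    BM.of_mem (measurable_pi_iff.1 (h.measurable_Y D lt) i) fun b => h.Ysol_mem i
  have lX : Lip (fun b => Ysol ε (mI G θ D) lt b i) c (D ×ˢ Finset.range (i.2 + 1)) :=
    h.Ysol_lip hi
  obtain ⟨F, f1, f2, f3⟩ := efron_stein c0 Out _ _ (bX D) lX
  have mu : Measurable fun b => inn ε (mI G θ D) lt (Ysol ε (mI G θ D') lt b) :=
    (measurable_inn lt).comp (h.measurable_Y D' lt)
  have t1 : ∫ b, |Ysol ε (mI G θ D) lt b i - F b| ∂(iidUniform (V × ℕ)) ≤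
      δ + (∑ p ∈ Out, c p ^ 2) / δ :=
    (integral_abs_le _ ((bX D).sub f1) hδ).trans
      (add_le_add_right (div_le_div_of_nonneg_right f3 hδ.le) _)
  have t3 := law_transfer h hkey hD hsub (L := i.2 + 1)
    (g := fun y => |Ysol ε (mI G θ D) lt (inn ε (mI G θ D) lt y) i - F (inn ε (mI G θ D) lt y)|)
    ((((bX D).sub f1).abs).comp (measurable_inn lt)) (fun y y' hy => by
      have := inn_congr (G := G) (θ := θ) (ε := ε) (lt := lt) hy
      simp only
      rw [lX.eq this, f2.eq fun p hp => this p (Finset.mem_sdiff.1 hp).1])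
  simp only [← hlt, h.inn_Ysol, h.Ysol_inn lt h.Ysol_mem] at t3
  have bp : ∀ p, BM fun b : V × ℕ → I =>
      |(b p : ℝ) - inn ε (mI G θ D) lt (Ysol ε (mI G θ D') lt b) p| := fun p =>
    ((BM.of_mem (measurable_pi_iff.1 measurable_cf p) fun b => (b p).2).sub
      (BM.of_mem (measurable_pi_iff.1 (measurable_cf.comp mu) p) fun b =>
        (inn ε (mI G θ D) lt (Ysol ε (mI G θ D') lt b) p).2)).abs
  have t2 : ∀ p ∈ (D ×ˢ Finset.range (i.2 + 1)) \ Out,
      ∫ b, |(b p : ℝ) - inn ε (mI G θ D) lt (Ysol ε (mI G θ D') lt b) p| ∂(iidUniform (V × ℕ)) ≤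
        δ' + (en G θ ε lt D' p - en G θ ε lt D p) / δ' := by
    intro p hp
    have a := (h.bm_m D lt p).comp (h.measurable_Y D' lt)
    have b := (h.bm_m D' lt p).comp (h.measurable_Y D' lt)
    rw [← en_diff h hkey hD hsub (Finset.mem_product.1 (Finset.mem_sdiff.1 hp).1).1]
    refine le_trans (integral_mono ((bp p).integrable _) ((b.sub a).abs.integrable _) fun b => ?_)
      (integral_abs_le _ (b.sub a) hδ')
    simp only
    conv_lhs => enter [1, 1]; rw [← h.inn_Ysol (D := D') lt b]
    rw [h.inn_coe lt h.Ysol_mem, h.inn_coe lt h.Ysol_mem]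
    refine (cdfF_lip h.hε _ _ (h.Ysol_mem p)).trans
      (mul_le_of_le_one_left (abs_nonneg _) (by linarith [h.hε.2]))
  have i1 := ((bX D).sub f1).abs.integrable (iidUniform (V × ℕ))
  have i2 := (BM.sum ((D ×ˢ Finset.range (i.2 + 1)) \ Out)
    fun p _ => (BM.const (c p)).mul (bp p)).integrable (iidUniform (V × ℕ))
  have i3 := ((bX D').sub (f1.comp mu)).abs.integrable (iidUniform (V × ℕ))
  refine (integral_mono (((bX D).sub (bX D')).abs.integrable _) ((i1.add i2).add i3)
    fun b => ?_).trans ?_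
  · simp only [Pi.add_apply]
    have := f2 b (inn ε (mI G θ D) lt (Ysol ε (mI G θ D') lt b))
    have a1 := abs_sub_le (Ysol ε (mI G θ D) lt b i) (F b) (Ysol ε (mI G θ D') lt b i)
    have a2 := abs_sub_le (F b) (F (inn ε (mI G θ D) lt (Ysol ε (mI G θ D') lt b)))
      (Ysol ε (mI G θ D') lt b i)
    rw [abs_sub_comm (F (inn _ _ _ _))] at a2
    linarith
  · simp only [Pi.add_apply]
    rw [integral_add (i1.fun_add i2) i3, integral_add i1 i2, t3,
      integral_finsetSum _ fun p _ => ((BM.const (c p)).mul (bp p)).integrable _]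
    simp only [integral_const_mul]
    have := Finset.sum_le_sum fun p hp => mul_le_mul_of_nonneg_left (t2 p hp) (c0 p)
    linarith

theorem cauchy_fixed [G.LocallyFinite] (h : Par G θ ε r C) (hkey : Function.Injective key)
    (i : V × ℕ) {δ : ℝ} (hδ : 0 < δ) :
    ∃ D0 : Finset V, ∀ (o1 o2 : V) (D1 D2 : Finset V), GoodAt G o1 D1 → GoodAt G o2 D2 →
      D0 ⊆ D1 → D0 ⊆ D2 →
      ∫ b, |Ysol ε (mI G θ D1) (fun f g => key f < key g) b i -
        Ysol ε (mI G θ D2) (fun f g => key f < key g) b i| ∂(iidUniform (V × ℕ)) ≤ δ := by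
  set lt : V → V → Prop := fun f g => key f < key g with hlt
  have hc := h.tree.connected
  have hr := h.hr
  obtain ⟨R, hR⟩ := h.tail i.1 ((δ / 16) ^ 2 / ((i.2 + 1) * (2 ^ i.2 * 4) ^ 2)) (by positivity)
  set In := ballF hc i.1 R ×ˢ Finset.range (i.2 + 1) with hIn
  set c : V × ℕ → ℝ := fun p => 2 ^ i.2 * 4 * r ^ G.dist p.1 i.1 with hcdef
  have c0 : ∀ p, 0 ≤ c p := fun p => by simp only [hcdef]; positivity
  set A := ∑ p ∈ In, c p + 1 with hA
  have A0 : 0 < A := add_pos_of_nonneg_of_pos (Finset.sum_nonneg fun p _ => c0 p) one_pos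
  set δ' := δ / (8 * A) with hδ'
  have hδ'0 : 0 < δ' := by positivity
  have mono : ∀ {o : V} {D D' : Finset V} {p : V × ℕ}, GoodAt G o D → D ⊆ D' → p.1 ∈ D →
      en G θ ε lt D p ≤ en G θ ε lt D' p := fun hD hs hp => by
    rw [← sub_nonneg, ← en_diff h hkey hD hs hp]
    exact integral_nonneg fun _ => sq_nonneg _
  have conv : ∀ p ∈ In, ∀ᶠ n in atTop, ∀ m, en G θ ε lt (ballF hc i.1 (R + m)) p -
      en G θ ε lt (ballF hc i.1 (R + n)) p ≤ δ' ^ 2 := by
    intro p hp
    have hm : Monotone fun n => en G θ ε lt (ballF hc i.1 (R + n)) p := fun a b hab =>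
      mono (good_ballF hc _ _) (ballF_mono hc _ (by omega))
        (ballF_mono hc _ (by omega) (Finset.mem_product.1 hp).1)
    have hb : BddAbove (Set.range fun n => en G θ ε lt (ballF hc i.1 (R + n)) p) :=
      ⟨1, by rintro _ ⟨n, rfl⟩; exact en_le_one h _ _ _⟩
    filter_upwards [(tendsto_atTop_ciSup hm hb).eventually
      (lt_mem_nhds (sub_lt_self _ (pow_pos hδ'0 2)))] with n hn m
    linarith [le_ciSup hb m]
  obtain ⟨n0, hn0⟩ := ((eventually_all_finset In).2 conv).exists
  have main : ∀ (o : V) (D : Finset V) (m : ℕ), GoodAt G o D → ballF hc i.1 (R + n0) ⊆ D →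
      D ⊆ ballF hc i.1 (R + m) →
      ∫ b, |Ysol ε (mI G θ D) lt b i - Ysol ε (mI G θ (ballF hc i.1 (R + m))) lt b i|
        ∂(iidUniform (V × ℕ)) ≤ δ / 2 := by
    intro o D m hD h1 h2
    have hiD : i.1 ∈ D := h1 (good_ballF hc _ _).1
    refine (pair_bound h hkey hD h2 hiD ((D.filter fun w => R < G.dist w i.1) ×ˢ
      Finset.range (i.2 + 1)) (δ := δ / 16) (by positivity) hδ'0).trans ?_
    have s1 : ∑ p ∈ (D.filter fun w => R < G.dist w i.1) ×ˢ Finset.range (i.2 + 1),
        (2 ^ i.2 * 4 * r ^ G.dist p.1 i.1) ^ 2 ≤ (δ / 16) ^ 2 := by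
      rw [Finset.sum_product]
      simp only [Finset.sum_const, Finset.card_range, nsmul_eq_mul, mul_pow _ (r ^ _),
        ← mul_assoc]
      rw [← Finset.mul_sum]
      have := hR (D.filter fun w => R < G.dist w i.1) fun w hw => (Finset.mem_filter.1 hw).2
      rw [le_div_iff₀ (by positivity)] at this
      push_cast
      linarith
    have sub : (D ×ˢ Finset.range (i.2 + 1)) \ ((D.filter fun w => R < G.dist w i.1) ×ˢ
        Finset.range (i.2 + 1)) ⊆ In := by
      intro p hp
      simp only [Finset.mem_sdiff, Finset.mem_product, Finset.mem_filter, hIn, mem_ballF] at hp ⊢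
      refine ⟨?_, hp.1.2⟩
      rw [SimpleGraph.dist_comm]
      by_contra hcon
      exact hp.2 ⟨⟨hp.1.1, not_le.1 hcon⟩, hp.1.2⟩
    have s2 : ∑ p ∈ (D ×ˢ Finset.range (i.2 + 1)) \ ((D.filter fun w => R < G.dist w i.1) ×ˢ
        Finset.range (i.2 + 1)), c p * (δ' + (en G θ ε lt (ballF hc i.1 (R + m)) p -
          en G θ ε lt D p) / δ') ≤ A * (2 * δ') := by
      calc _ ≤ ∑ p ∈ (D ×ˢ Finset.range (i.2 + 1)) \ ((D.filter fun w => R < G.dist w i.1) ×ˢ
            Finset.range (i.2 + 1)), c p * (2 * δ') := Finset.sum_le_sum fun p hp => by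
            refine mul_le_mul_of_nonneg_left ?_ (c0 p)
            have a1 := hn0 p (sub hp) m
            have a2 := mono (p := p) (good_ballF hc i.1 (R + n0)) h1
              (ballF_mono hc _ (by omega) (Finset.mem_product.1 (sub hp)).1)
            have : (en G θ ε lt (ballF hc i.1 (R + m)) p - en G θ ε lt D p) / δ' ≤ δ' := by
              rw [div_le_iff₀ hδ'0]; nlinarith
            linarith
        _ ≤ ∑ p ∈ In, c p * (2 * δ') :=
            Finset.sum_le_sum_of_subset_of_nonneg sub fun p _ _ => by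
              have := c0 p; positivity
        _ ≤ _ := by
            rw [← Finset.sum_mul]
            exact mul_le_mul_of_nonneg_right (by linarith) (by positivity)
    have e1 : A * (2 * δ') = δ / 4 := by rw [hδ']; field_simp; norm_num
    have s3 := div_le_div_of_nonneg_right s1 (show 0 ≤ δ / 16 by positivity)
    have e2 : (δ / 16) ^ 2 / (δ / 16) = δ / 16 := by field_simp
    simp only [hcdef] at s2
    linarith
  refine ⟨ballF hc i.1 (R + n0), fun o1 o2 D1 D2 g1 g2 s1 s2 => ?_⟩
  obtain ⟨m, hm⟩ := subset_ballF hc i.1 (D1 ∪ D2)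
  have hU := hm (R + m) (by omega)
  have a1 := main o1 D1 m g1 s1 (Finset.subset_union_left.trans hU)
  have a2 := main o2 D2 m g2 s2 (Finset.subset_union_right.trans hU)
  have bX : ∀ D : Finset V, BM fun b => Ysol ε (mI G θ D) lt b i := fun D =>
    BM.of_mem (measurable_pi_iff.1 (h.measurable_Y D lt) i) fun b => h.Ysol_mem i
  have i1 := ((bX D1).sub (bX (ballF hc i.1 (R + m)))).abs.integrable (iidUniform (V × ℕ))
  have i2 := ((bX D2).sub (bX (ballF hc i.1 (R + m)))).abs.integrable (iidUniform (V × ℕ))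
  refine (integral_mono (((bX D1).sub (bX D2)).abs.integrable _) (i1.add i2)
    fun b => ?_).trans ?_
  · simp only [Pi.add_apply]
    rw [abs_sub_comm (Ysol ε (mI G θ D2) lt b i)]
    exact abs_sub_le _ _ _
  · simp only [Pi.add_apply]
    rw [integral_add i1 i2]
    linarith

end Vale.Agent.P161
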