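import Vale.Agent.P143.Channel

namespace Vale.Agent.P161

open MeasureTheory unitInterval

noncomputable def dens (ε m x : ℝ) : ℝ := 1 + ε * (2 * m - 1) * (2 * x - 1)

noncomputable def cdfF (ε m x : ℝ) : ℝ := x + ε * (2 * m - 1) * (x ^ 2 - x)

noncomputable def Qf (ε m u : ℝ) : ℝ :=
  2 * u / ((1 - ε * (2 * m - 1)) + √((1 - ε * (2 * m - 1)) ^ 2 + 4 * (ε * (2 * m - 1)) * u))

noncomputable def lam (ε x : ℝ) : ℝ :=
  Real.log (1 + ε * (2 * x - 1)) - Real.log (1 - ε * (2 * x - 1))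

variable {ε : ℝ}

lemma s_bound (hε : ε ∈ Set.Ioc (0 : ℝ) (1 / 2)) {m : ℝ} (hm : m ∈ Set.Icc (0 : ℝ) 1) :
    -(1 / 2) ≤ ε * (2 * m - 1) ∧ ε * (2 * m - 1) ≤ 1 / 2 := by
  obtain ⟨a, b⟩ := hm; obtain ⟨c, d⟩ := hε
  constructor <;> nlinarith

lemma cdfF_sub (hε : ε ∈ Set.Ioc (0 : ℝ) (1 / 2)) {m x y : ℝ} (hm : m ∈ Set.Icc (0 : ℝ) 1)
    (hx : x ∈ Set.Icc (0 : ℝ) 1) (hy : y ∈ Set.Icc (0 : ℝ) 1) :
    1 / 2 * |x - y| ≤ |cdfF ε m x - cdfF ε m y| := by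
  have : cdfF ε m x - cdfF ε m y = (1 + ε * (2 * m - 1) * (x + y - 1)) * (x - y) := by
    unfold cdfF; ring
  rw [this, abs_mul]
  refine mul_le_mul_of_nonneg_right (le_trans ?_ (le_abs_self _)) (abs_nonneg _)
  obtain ⟨a, b⟩ := s_bound hε hm; obtain ⟨c, d⟩ := hx; obtain ⟨e, f⟩ := hy
  nlinarith

lemma cdfF_mem (hε : ε ∈ Set.Ioc (0 : ℝ) (1 / 2)) {m x : ℝ} (hm : m ∈ Set.Icc (0 : ℝ) 1)
    (hx : x ∈ Set.Icc (0 : ℝ) 1) : cdfF ε m x ∈ Set.Icc (0 : ℝ) 1 := by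
  obtain ⟨a, b⟩ := s_bound hε hm; obtain ⟨c, d⟩ := hx
  have h := mul_nonneg c (sub_nonneg.2 d)
  unfold cdfF
  constructor <;> nlinarith

lemma cdfF_lip (hε : ε ∈ Set.Ioc (0 : ℝ) (1 / 2)) (m m' : ℝ) {x : ℝ}
    (hx : x ∈ Set.Icc (0 : ℝ) 1) : |cdfF ε m x - cdfF ε m' x| ≤ ε / 2 * |m - m'| := by
  have h6 : cdfF ε m x - cdfF ε m' x = (2 * ε * (x ^ 2 - x)) * (m - m') := by unfold cdfF; ring
  have h7 : |2 * ε * (x ^ 2 - x)| ≤ ε / 2 := by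
    rw [abs_le]
    constructor <;> nlinarith [hx.1, hx.2, sq_nonneg (x - 1 / 2), hε.1,
      mul_nonneg hε.1.le (sq_nonneg (x - 1 / 2)),
      mul_nonneg hε.1.le (mul_nonneg hx.1 (sub_nonneg.2 hx.2))]
  rw [h6, abs_mul]
  exact mul_le_mul_of_nonneg_right h7 (abs_nonneg _)

lemma Qf_spec (hε : ε ∈ Set.Ioc (0 : ℝ) (1 / 2)) {m u : ℝ} (hm : m ∈ Set.Icc (0 : ℝ) 1)
    (hu : u ∈ Set.Icc (0 : ℝ) 1) : Qf ε m u ∈ Set.Icc (0 : ℝ) 1 ∧ cdfF ε m (Qf ε m u) = u := by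
  obtain ⟨s1, s2⟩ := s_bound hε hm; obtain ⟨c, d⟩ := hu
  unfold Qf cdfF
  generalize ε * (2 * m - 1) = s at *
  have hD : 0 ≤ (1 - s) ^ 2 + 4 * s * u := by
    nlinarith [mul_nonneg (sub_nonneg.2 d) (sq_nonneg (1 - s)), mul_nonneg c (sq_nonneg (1 + s))]
  have hr := Real.sq_sqrt hD
  have hr0 := Real.sqrt_nonneg ((1 - s) ^ 2 + 4 * s * u)
  set r := √((1 - s) ^ 2 + 4 * s * u)
  have hden : 0 < 1 - s + r := by linarith
  refine ⟨⟨by positivity, ?_⟩, ?_⟩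
  · rw [div_le_one hden]
    by_contra hcon
    push Not at hcon
    have h1 : r < 2 * u - (1 - s) := by linarith
    have h2 : r ^ 2 < (2 * u - (1 - s)) ^ 2 := by nlinarith
    nlinarith
  · field_simp
    linear_combination (-u) * hr

lemma Qf_cdfF (hε : ε ∈ Set.Ioc (0 : ℝ) (1 / 2)) {m x : ℝ} (hm : m ∈ Set.Icc (0 : ℝ) 1)
    (hx : x ∈ Set.Icc (0 : ℝ) 1) : Qf ε m (cdfF ε m x) = x := by
  obtain ⟨h1, h2⟩ := Qf_spec hε hm (cdfF_mem hε hm hx)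
  have := cdfF_sub hε hm h1 hx
  rw [h2, sub_self, abs_zero] at this
  have h3 : |Qf ε m (cdfF ε m x) - x| ≤ 0 := by linarith
  exact sub_eq_zero.1 (abs_nonpos_iff.1 h3)

lemma Qf_lip (hε : ε ∈ Set.Ioc (0 : ℝ) (1 / 2)) {m m' u u' : ℝ} (hm : m ∈ Set.Icc (0 : ℝ) 1)
    (hm' : m' ∈ Set.Icc (0 : ℝ) 1) (hu : u ∈ Set.Icc (0 : ℝ) 1) (hu' : u' ∈ Set.Icc (0 : ℝ) 1) :
    |Qf ε m u - Qf ε m' u'| ≤ 2 * |u - u'| + ε * |m - m'| := by
  obtain ⟨h1, h2⟩ := Qf_spec hε hm hu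
  obtain ⟨h3, h4⟩ := Qf_spec hε hm' hu'
  have h5 := cdfF_sub hε hm h1 h3
  have h6 := cdfF_lip hε m' m h3
  rw [h2] at h5
  rw [h4, abs_sub_comm m' m] at h6
  linarith [abs_sub_le u u' (cdfF ε m (Qf ε m' u'))]

lemma log_lip {a b : ℝ} (ha : 1 / 2 ≤ a) (hb : 1 / 2 ≤ b) :
    |Real.log a - Real.log b| ≤ 2 * |a - b| := by
  have := P143.log_lip (a := 14 * a) (b := 14 * b) (by linarith) (by linarith)
  rw [Real.log_mul (by norm_num) (by linarith), Real.log_mul (by norm_num) (by linarith),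
    add_sub_add_left_eq_sub, ← mul_sub, abs_mul, abs_of_pos (by norm_num : (0 : ℝ) < 14)] at this
  linarith

lemma lam_lip (hε : ε ∈ Set.Ioc (0 : ℝ) (1 / 2)) {x y : ℝ} (hx : x ∈ Set.Icc (0 : ℝ) 1)
    (hy : y ∈ Set.Icc (0 : ℝ) 1) : |lam ε x - lam ε y| ≤ 8 * ε * |x - y| := by
  obtain ⟨a1, a2⟩ := s_bound hε hx
  obtain ⟨b1, b2⟩ := s_bound hε hy
  have h1 := log_lip (a := 1 + ε * (2 * x - 1)) (b := 1 + ε * (2 * y - 1)) (by linarith)
    (by linarith)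
  have h2 := log_lip (a := 1 - ε * (2 * y - 1)) (b := 1 - ε * (2 * x - 1)) (by linarith)
    (by linarith)
  have e1 : 1 + ε * (2 * x - 1) - (1 + ε * (2 * y - 1)) = 2 * ε * (x - y) := by ring
  have e2 : 1 - ε * (2 * y - 1) - (1 - ε * (2 * x - 1)) = 2 * ε * (x - y) := by ring
  have e3 : |2 * ε| = 2 * ε := abs_of_pos (by linarith [hε.1])
  rw [e1, abs_mul, e3] at h1
  rw [e2, abs_mul, e3] at h2
  have : lam ε x - lam ε y =
      (Real.log (1 + ε * (2 * x - 1)) - Real.log (1 + ε * (2 * y - 1))) +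
      (Real.log (1 - ε * (2 * y - 1)) - Real.log (1 - ε * (2 * x - 1))) := by unfold lam; ring
  rw [this]
  linarith [abs_add_le (Real.log (1 + ε * (2 * x - 1)) - Real.log (1 + ε * (2 * y - 1)))
    (Real.log (1 - ε * (2 * y - 1)) - Real.log (1 - ε * (2 * x - 1)))]

lemma dens_one_eq (hε : ε ∈ Set.Ioc (0 : ℝ) (1 / 2)) {x : ℝ} (hx : x ∈ Set.Icc (0 : ℝ) 1) :
    dens ε 1 x = dens ε 0 x * Real.exp (lam ε x) := by
  obtain ⟨a1, a2⟩ := s_bound hε hx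
  have h1 : 0 < 1 + ε * (2 * x - 1) := by linarith
  have h2 : 0 < 1 - ε * (2 * x - 1) := by linarith
  have e0 : dens ε 0 x = 1 - ε * (2 * x - 1) := by unfold dens; ring
  have e1 : dens ε 1 x = 1 + ε * (2 * x - 1) := by unfold dens; ring
  rw [e0, e1, lam, Real.exp_sub, Real.exp_log h1, Real.exp_log h2]
  field_simp

lemma dens_affine (ε m x : ℝ) : dens ε m x = dens ε 0 x + m * (dens ε 1 x - dens ε 0 x) := by
  unfold dens; ring

lemma dens_mem (hε : ε ∈ Set.Ioc (0 : ℝ) (1 / 2)) {m x : ℝ} (hm : m ∈ Set.Icc (0 : ℝ) 1)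
    (hx : x ∈ Set.Icc (0 : ℝ) 1) : dens ε m x ∈ Set.Icc (0 : ℝ) 2 := by
  obtain ⟨a, b⟩ := s_bound hε hm; obtain ⟨c, d⟩ := hx
  unfold dens
  constructor <;> nlinarith

lemma integral_Qf (hε : ε ∈ Set.Ioc (0 : ℝ) (1 / 2)) {m : ℝ} (hm : m ∈ Set.Icc (0 : ℝ) 1)
    (ψ : ℝ → ℝ) : ∫ u : I, ψ (Qf ε m u) = ∫ x : I, ψ x * dens ε m x := by
  rw [integral_subtype measurableSet_Icc (fun u => ψ (Qf ε m u)),
    integral_subtype measurableSet_Icc (fun x => ψ x * dens ε m x)]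
  have himg : cdfF ε m '' Set.Icc 0 1 = Set.Icc 0 1 := by
    refine Set.Subset.antisymm ?_
      fun u hu => ⟨Qf ε m u, (Qf_spec hε hm hu).1, (Qf_spec hε hm hu).2⟩
    rintro _ ⟨x, hx, rfl⟩
    exact cdfF_mem hε hm hx
  have hder : ∀ x ∈ Set.Icc (0 : ℝ) 1,
      HasDerivWithinAt (cdfF ε m) (dens ε m x) (Set.Icc 0 1) x := by
    intro x _
    have := ((hasDerivAt_id x).add ((((hasDerivAt_id x).pow 2).sub (hasDerivAt_id x)).const_mul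
      (ε * (2 * m - 1))))
    refine HasDerivAt.hasDerivWithinAt ?_
    convert this using 1
    · ext y; simp [cdfF]
    · unfold dens; simp
  have hinj : Set.InjOn (cdfF ε m) (Set.Icc 0 1) := fun x hx y hy h => by
    rw [← Qf_cdfF hε hm hx, h, Qf_cdfF hε hm hy]
  have := integral_image_eq_integral_abs_deriv_smul measurableSet_Icc hder hinj
    (fun u => ψ (Qf ε m u))
  rw [himg] at this
  rw [this]
  refine setIntegral_congr_fun measurableSet_Icc fun x hx => ?_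
  simp only [Qf_cdfF hε hm hx, abs_of_nonneg (dens_mem hε hm hx).1, smul_eq_mul, mul_comm]

lemma integral_dens (ε m : ℝ) : ∫ x : I, dens ε m x = 1 := by
  have := P143.integral_cubic (1 - ε * (2 * m - 1)) (2 * (ε * (2 * m - 1))) 0 0
  rw [show (1 : ℝ) = 1 - ε * (2 * m - 1) + 2 * (ε * (2 * m - 1)) / 2 + 0 / 3 + 0 / 4 by ring,
    ← this]
  congr 1; ext x; unfold dens; ring

/-- unbiased estimator of the bit from one observation -/
noncomputable def est (ε x : ℝ) : ℝ := 1 / 2 + 3 / ε * (x - 1 / 2)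

lemma integral_sq_dens (hε : ε ∈ Set.Ioc (0 : ℝ) (1 / 2)) (A t : ℝ) :
    ∫ x : I, (A + (est ε x - t)) ^ 2 * dens ε t x ≤ A ^ 2 + 1 / ε ^ 2 := by
  have h0 := hε.1.ne'
  set α := A + 1 / 2 - 3 / ε / 2 - t with hα
  set s := ε * (2 * t - 1) with hs
  have := P143.integral_cubic (α ^ 2 * (1 - s)) (2 * α * (3 / ε) * (1 - s) + 2 * s * α ^ 2)
    ((3 / ε) ^ 2 * (1 - s) + 4 * s * α * (3 / ε)) (2 * s * (3 / ε) ^ 2)
  have e : ∫ x : I, (A + (est ε x - t)) ^ 2 * dens ε t x =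
      A ^ 2 + 3 / 4 * (1 / ε ^ 2) - (2 * t - 1) ^ 2 / 4 := by
    refine Eq.trans ?_ (this.trans ?_)
    · congr 1; ext x; unfold dens est; rw [hα, hs]; ring
    · rw [hα, hs]; field_simp; ring
  rw [e]
  have : 0 ≤ 1 / ε ^ 2 := by positivity
  nlinarith [sq_nonneg (2 * t - 1)]

@[fun_prop] lemma measurable_lam (ε : ℝ) : Measurable (lam ε) := by unfold lam; fun_prop

@[fun_prop] lemma measurable_Qf {X : Type*} [MeasurableSpace X] {f g : X → ℝ} (hf : Measurable f)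
    (hg : Measurable g) : Measurable fun x => Qf ε (f x) (g x) := by
  unfold Qf; fun_prop

@[fun_prop] lemma measurable_dens {X : Type*} [MeasurableSpace X] {f g : X → ℝ}
    (hf : Measurable f) (hg : Measurable g) : Measurable fun x => dens ε (f x) (g x) := by
  unfold dens; fun_prop

end Vale.Agent.P161
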