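import Vale.Agent.P161.Cauchy

namespace Vale.Agent.P161

open MeasureTheory unitInterval Classical
open Vale.Agent.P143 (BM iidUniform clamp clamp_mem clamp_sub)

variable {V : Type*} {G : SimpleGraph V} {θ ε r C : ℝ} {D : Finset V}

lemma bm_xi (ε : ℝ) (T : Finset V) (S : Finset (V × ℕ)) :
    BM fun b : V × ℕ → I => (∑ p ∈ S, (est ε (cf b p) - ind T p.1)) ^ 2 :=
  bm_sq (BM.sum _ fun p _ => ((BM.const _).add ((BM.const _).mul ((BM.of_mem
    (measurable_pi_iff.1 measurable_cf p) fun b => (b p).2).sub (BM.const _)))).sub (BM.const _))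

lemma lik_moments (hε : ε ∈ Set.Ioc (0 : ℝ) (1 / 2)) (T : Finset V)
    (S : V × ℕ → Prop) [DecidablePred S] (J : Finset (V × ℕ)) :
    ∫ b, lik ε J T (cf b) ∂(iidUniform (V × ℕ)) = 1 ∧
      ∫ b, (∑ p ∈ J.filter S, (est ε (cf b p) - ind T p.1)) ^ 2 *
        lik ε J T (cf b) ∂(iidUniform (V × ℕ)) ≤ 1 / ε ^ 2 * (J.filter S).card := by
  induction J using Finset.induction_on with
  | empty => simp [lik]
  | insert i J hi ih =>
    obtain ⟨ih1, ih2⟩ := ih
    have hsum : ∀ (y : V × ℕ → ℝ) t, ∑ p ∈ J.filter S,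
        (est ε (Function.update y i t p) - ind T p.1) =
        ∑ p ∈ J.filter S, (est ε (y p) - ind T p.1) := fun y t =>
      Finset.sum_congr rfl fun p hp => by
        rw [Function.update_of_ne (by rintro rfl; exact hi (Finset.mem_filter.1 hp).1)]
    constructor
    · rw [integral_update i (bm_lik hε _ T)]
      simp only [cf_update, lik_insert hi, integral_mul_const, integral_dens, one_mul, ih1]
    · rw [integral_update i ((bm_xi ε T _).mul (bm_lik hε _ T)), Finset.filter_insert]
      split_ifs with hS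
      · have hi' : i ∉ J.filter S := fun h => hi (Finset.mem_filter.1 h).1
        simp only [Finset.sum_insert hi', cf_update, lik_insert hi, hsum, Function.update_self]
        rw [Finset.card_insert_of_notMem hi']
        have bm2 := (bm_xi ε T (J.filter S)).mul (bm_lik hε J T)
        have bm3 := (BM.const (1 / ε ^ 2)).mul (bm_lik hε J T)
        refine (integral_mono_of_nonneg ?_ ((bm2.add bm3).integrable _) ?_).trans ?_
        · exact Filter.Eventually.of_forall fun b => integral_nonneg fun t =>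
            mul_nonneg (sq_nonneg _)
              (mul_nonneg (dens_mem hε (ind_mem _ _) t.2).1 (lik_nonneg hε _ _ _))
        · refine Filter.Eventually.of_forall fun b => ?_
          simp only [← mul_assoc, integral_mul_const]
          rw [← add_mul]
          refine mul_le_mul_of_nonneg_right ?_ (lik_nonneg hε _ _ _)
          simpa only [add_comm] using integral_sq_dens hε
            (∑ p ∈ J.filter S, (est ε (cf b p) - ind T p.1)) (ind T i.1)
        · rw [integral_add (bm2.integrable _) (bm3.integrable _), integral_const_mul, ih1]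
          push_cast
          linarith
      · simp only [cf_update, lik_insert hi, hsum]
        simp only [mul_left_comm _ (dens _ _ _), integral_mul_const, integral_dens, one_mul]
        exact ih2

noncomputable def soft (ε : ℝ) (y : V × ℕ → ℝ) (p : V × ℕ) : ℝ :=
  clamp (3 * ((∑ k ∈ Finset.range (2 ^ p.2), est ε (y (p.1, k))) / 2 ^ p.2) - 1)

lemma soft_mem (ε : ℝ) (y : V × ℕ → ℝ) (p : V × ℕ) : soft ε y p ∈ Set.Icc (0 : ℝ) 1 :=
  clamp_mem _

lemma continuous_soft (ε : ℝ) (p : V × ℕ) : Continuous fun y => soft ε y p := by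
  unfold soft clamp est
  fun_prop

lemma bm_soft (ε : ℝ) (p : V × ℕ) : BM fun y => soft ε y p :=
  BM.of_mem (by unfold soft clamp est; fun_prop) fun y => soft_mem ε y p

lemma soft_error (hε : ε ∈ Set.Ioc (0 : ℝ) (1 / 2)) (T : Finset V) {L : ℕ} {q : V × ℕ}
    (hq : q.1 ∈ D) (hL : 2 ^ q.2 ≤ L) :
    ∫ b, |soft ε (cf b) q - ind T q.1| * lik ε (D ×ˢ Finset.range L) T (cf b)
      ∂(iidUniform (V × ℕ)) ≤ 9 / ε ^ 2 / 2 ^ q.2 := by
  obtain ⟨-, h2⟩ := lik_moments hε T (fun p => p.1 = q.1 ∧ p.2 < 2 ^ q.2)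
    (D ×ˢ Finset.range L)
  have hf : (D ×ˢ Finset.range L).filter (fun p => p.1 = q.1 ∧ p.2 < 2 ^ q.2) =
      (Finset.range (2 ^ q.2)).image fun k => (q.1, k) := by
    ext p
    simp only [Finset.mem_filter, Finset.mem_product, Finset.mem_range, Finset.mem_image]
    constructor
    · rintro ⟨_, h1, h2⟩
      exact ⟨p.2, h2, Prod.ext h1.symm rfl⟩
    · rintro ⟨k, hk, rfl⟩
      exact ⟨⟨hq, by simp only; omega⟩, rfl, hk⟩
  have hinj : Function.Injective fun k : ℕ => (q.1, k) := fun a b h => (Prod.ext_iff.1 h).2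
  have bm := (bm_xi ε T ((D ×ˢ Finset.range L).filter
    (fun p => p.1 = q.1 ∧ p.2 < 2 ^ q.2))).mul (bm_lik hε (D ×ˢ Finset.range L) T)
  rw [hf] at h2 bm
  rw [Finset.card_image_of_injective _ hinj, Finset.card_range] at h2
  simp only [Finset.sum_image hinj.injOn] at h2 bm
  have hp : (0 : ℝ) < 2 ^ q.2 := by positivity
  refine (integral_mono_of_nonneg ?_ (((BM.const (9 / (2 ^ q.2) ^ 2)).mul bm).integrable _)
    ?_).trans ?_
  · exact Filter.Eventually.of_forall fun b => mul_nonneg (abs_nonneg _) (lik_nonneg hε _ _ _)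
  · refine Filter.Eventually.of_forall fun b => ?_
    simp only [← mul_assoc]
    refine mul_le_mul_of_nonneg_right ?_ (lik_nonneg hε _ _ _)
    rw [soft]
    refine (clamp_sub (by unfold ind; split_ifs <;> simp)).trans (le_of_eq ?_)
    rw [Finset.sum_sub_distrib (fun k => est ε (cf b (q.1, k)))]
    simp only [Finset.sum_const, Finset.card_range, nsmul_eq_mul]
    generalize ∑ k ∈ Finset.range (2 ^ q.2), est ε (cf b (q.1, k)) = A
    push_cast
    field_simp
  · rw [integral_const_mul]
    refine (mul_le_mul_of_nonneg_left h2 (by positivity)).trans (le_of_eq ?_)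
    push_cast
    field_simp

theorem finite_bound (h : Par G θ ε r C) {K : Type*} [LinearOrder K] {key : V → K}
    (hkey : Function.Injective key) (S : Finset (V × ℕ)) (hS : ∀ q ∈ S, q.1 ∈ D)
    {g : (V × ℕ → ℝ) → ℝ} (hg : BM g)
    (hdep : ∀ y y', (∀ q ∈ S, soft ε y q = soft ε y' q) → g y = g y')
    {c : Finset V → ℝ} {w : ℝ} (hw : 0 ≤ w)
    (hc : ∀ y T, |g y - c T| ≤ w * ∑ q ∈ S, |soft ε y q - ind T q.1|) :
    |∫ b, g (Ysol ε (mI G θ D) (fun f g => key f < key g) b) ∂(iidUniform (V × ℕ)) -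
      SI G θ D 0 c / SI G θ D 0 fun _ => 1| ≤ w * ∑ q ∈ S, 9 / ε ^ 2 / 2 ^ q.2 := by
  obtain ⟨L, hL⟩ : ∃ L, ∀ q ∈ S, 2 ^ q.2 ≤ L :=
    ⟨S.sup fun q => 2 ^ q.2, fun q hq => Finset.le_sup (f := fun q => 2 ^ q.2) hq⟩
  set J := D ×ˢ Finset.range L with hJ
  have law := law_SI h hkey (Finset.Subset.refl J) (fun p hp => (Finset.mem_product.1 hp).1)
    (closed_box _ L) hg (by
      intro y y' h
      refine hdep _ _ fun q hq => ?_
      unfold soft
      congr 4
      refine Finset.sum_congr rfl fun k hk => ?_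
      rw [h (q.1, k) (Finset.mem_product.2 ⟨hS q hq,
        Finset.mem_range.2 ((Finset.mem_range.1 hk).trans_le (hL q hq))⟩)])
  have hZ := SI_pos (G := G) h.hθ D 0
  have bmg := hg.comp measurable_cf
  have bms : ∀ T q, BM fun b => |soft ε (cf b) q - ind T q.1| * lik ε J T (cf b) := fun T q =>
    (((bm_soft ε q).comp measurable_cf).sub (BM.const _)).abs.mul (bm_lik h.hε J T)
  have each : ∀ T, |∫ b, g (cf b) * lik ε J T (cf b) ∂(iidUniform (V × ℕ)) - c T| ≤
        w * ∑ q ∈ S, 9 / ε ^ 2 / 2 ^ q.2 := by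
    intro T
    have h1 := (lik_moments h.hε T (fun _ => True) J).1
    have e1 : ∫ b, g (cf b) * lik ε J T (cf b) ∂(iidUniform (V × ℕ)) - c T =
        ∫ b, (g (cf b) - c T) * lik ε J T (cf b) ∂(iidUniform (V × ℕ)) := by
      simp only [sub_mul]
      rw [integral_sub ((bmg.mul (bm_lik h.hε J T)).integrable _)
        (((BM.const _).mul (bm_lik h.hε J T)).integrable _), integral_const_mul, h1, mul_one]
    rw [e1]
    refine abs_integral_le_integral_abs.trans ((integral_mono_of_nonneg
      (Filter.Eventually.of_forall fun b => abs_nonneg _)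
      (((BM.const w).mul (BM.sum S fun q _ => bms T q)).integrable _)
      (Filter.Eventually.of_forall fun b => ?_)).trans ?_)
    · simp only
      rw [abs_mul, abs_of_nonneg (lik_nonneg h.hε _ _ _), ← Finset.sum_mul, ← mul_assoc]
      exact mul_le_mul_of_nonneg_right (hc _ T) (lik_nonneg h.hε _ _ _)
    · rw [integral_const_mul, integral_finsetSum _ fun q _ => (bms T q).integrable _]
      exact mul_le_mul_of_nonneg_left
        (Finset.sum_le_sum fun q hq => soft_error h.hε T (hS q hq) (hL q hq)) hw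
  rw [eq_div_of_mul_eq hZ.ne' ((mul_comm _ _).trans law), ← sub_div, abs_div,
    abs_of_pos hZ, div_le_iff₀ hZ, mul_SI, SI_zero, SI_zero, SI_zero, ← Finset.sum_sub_distrib]
  refine (Finset.abs_sum_le_sum_abs _ _).trans (Finset.sum_le_sum fun T _ => ?_)
  rw [← mul_sub, abs_mul, abs_of_pos (wI_pos h.hθ D T), mul_one]
  exact mul_le_mul_of_nonneg_left (each T) (wI_pos h.hθ D T).le

end Vale.Agent.P161
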