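import Mathlib

namespace Vale.Agent.P161

open MeasureTheory

variable {V : Type*}

/-- The spin `±1` encoded by a boolean. -/
def spin (b : Bool) : ℝ := if b then 1 else -1

open Classical in
/-- `μ` is the free zero-field Ising measure with parameter `θ` on the tree `G`: a probability
measure on spin configurations with the prescribed marginal on every finite connected subtree. -/
def IsFreeIsing (G : SimpleGraph V) (θ : ℝ) (μ : Measure (V → Bool)) : Prop :=
  IsProbabilityMeasure μ ∧ ∀ D : Finset V, (G.induce (D : Set V)).Connected → ∀ η : V → Bool,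
    μ {σ | ∀ v ∈ D, σ v = η v} = ENNReal.ofReal (1 / 2 *
      ∏ e ∈ D.sym2 with e ∈ G.edgeSet, (1 + θ * (e.map fun v => spin (η v)).mul) / 2)

end Vale.Agent.P161
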