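import Vale.Agent.P161.Limit
import Vale.Agent.P161.Defs

namespace Vale.Agent.P161

open MeasureTheory unitInterval Classical Filter Topology
open Vale.Agent.P143 (BM iidUniform ae_injective piecewise_mp exists_split)

variable {V : Type*} {G : SimpleGraph V} {θ ε r C : ℝ}

lemma exists_par (hG : G.IsTree) [G.LocallyFinite] {d : ℕ} (hd : ∀ v, G.degree v ≤ d)
    (hd2 : 2 ≤ d) (hθ : 0 ≤ θ) (h1 : (d - 1) * θ ^ 2 < 1) : ∃ ε r C, Par G θ ε r C := by
  have hd1 : (1 : ℝ) ≤ d - 1 := by
    have : (2 : ℝ) ≤ d := by exact_mod_cast hd2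
    linarith
  have hlt : θ ^ 2 < 1 / (d - 1) := by rw [lt_div_iff₀ (by linarith)]; linarith
  obtain ⟨s, hs1, hs2⟩ := exists_between hlt
  obtain ⟨t, ht1, ht2⟩ := exists_between hs2
  have s0 : 0 < s := (sq_nonneg θ).trans_lt hs1
  have t0 : 0 < t := s0.trans ht1
  rw [lt_div_iff₀ (by linarith)] at hs2 ht2
  have hr : θ < √s := Real.lt_sqrt_of_sq_lt hs1
  have hrs : √s ^ 2 = s := Real.sq_sqrt s0.le
  have r0 : 0 < √s := Real.sqrt_pos.2 s0
  obtain ⟨C, hC, hk⟩ := kernel_bound hG hd hθ hr (by
    nlinarith [mul_le_mul_of_nonneg_right (mul_le_mul_of_nonneg_right hr.le r0.le)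
      (show (0 : ℝ) ≤ d - 1 by linarith)])
  obtain ⟨C', hC', hk'⟩ := kernel_bound hG hd (θ := t) (r := 1) t0.le (by nlinarith)
    (by linarith)
  refine ⟨1 / (8 * C), √s, C, hG, ⟨hθ, by nlinarith⟩, ⟨by positivity, ?_⟩, r0, hk, ?_, ?_⟩
  · rw [div_le_div_iff₀ (by positivity) (by norm_num)]; linarith
  · have : 32 * (1 / (8 * C)) ^ 2 * C = 1 / (2 * C) := by field_simp; norm_num
    rw [this, div_le_one (by positivity)]; linarith
  · intro v η hη
    have q1 : s / t < 1 := (div_lt_one t0).2 ht1
    have := (tendsto_pow_atTop_nhds_zero_of_lt_one (by positivity) q1).mul_const C'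
    rw [zero_mul] at this
    obtain ⟨R, hR⟩ := (this.eventually (gt_mem_nhds hη)).exists
    refine ⟨R, fun D hD => le_trans ?_ hR.le⟩
    have h2 := hk' v v D
    simp only [one_pow, mul_one] at h2
    refine le_trans ?_ (mul_le_mul_of_nonneg_left h2 (by positivity))
    rw [Finset.mul_sum]
    refine Finset.sum_le_sum fun w hw => ?_
    rw [← pow_mul, mul_comm _ 2, pow_mul, hrs, SimpleGraph.dist_comm (u := v),
      show s = s / t * t by field_simp, mul_pow]
    refine mul_le_mul_of_nonneg_right ?_ (by positivity)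
    rw [show s / t * t / t = s / t by field_simp]
    exact pow_le_pow_of_le_one (by positivity) q1.le (hD w hw).le

noncomputable def Yb [G.LocallyFinite] (hc : G.Connected) (θ ε : ℝ) (c : V) (n : ℕ)
    (ω : (V → I) × (V × ℕ → I)) : V × ℕ → ℝ :=
  Ysol ε (mI G θ (ballF hc c n)) (fun f g => ω.1 f < ω.1 g) ω.2

lemma Par.measurable_Yb [G.LocallyFinite] (h : Par G θ ε r C) (c : V) (n : ℕ) (i : V × ℕ) :
    Measurable fun ω => Yb h.tree.connected θ ε c n ω i :=
  h.measurable_Ysol (fun f g => measurableSet_lt (by fun_prop) (by fun_prop))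
    (fun p => by fun_prop) i

lemma Par.bm_Yb [G.LocallyFinite] (h : Par G θ ε r C) (c : V) (n : ℕ) (i : V × ℕ) :
    BM fun ω => Yb h.tree.connected θ ε c n ω i :=
  BM.of_mem (h.measurable_Yb c n i) fun _ => h.Ysol_mem i

lemma Par.pair_tendsto [Countable V] [G.LocallyFinite] (h : Par G θ ε r C) (c c' : V)
    (i : V × ℕ) :
    Tendsto (fun q : ℕ × ℕ => ∫ ω, |Yb h.tree.connected θ ε c q.1 ω i -
      Yb h.tree.connected θ ε c' q.2 ω i| ∂((iidUniform V).prod (iidUniform (V × ℕ)))) atTop
      (𝓝 0) := by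
  have bm := fun q : ℕ × ℕ => ((h.bm_Yb c q.1 i).sub (h.bm_Yb c' q.2 i)).abs
  simp only [fun q => integral_prod _
    ((bm q).integrable ((iidUniform V).prod (iidUniform (V × ℕ))))]
  rw [← integral_zero (V → I) ℝ (μ := iidUniform V)]
  refine tendsto_integral_filter_of_dominated_convergence (fun _ => 1)
    (Eventually.of_forall fun q => (bm q).meas.stronglyMeasurable.integral_prod_right'
      |>.aestronglyMeasurable) (Eventually.of_forall fun q => Eventually.of_forall fun a => ?_)
    (integrable_const _) ?_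
  · simpa using norm_integral_le_of_norm_le_const (μ := iidUniform (V × ℕ)) (C := 1)
      (f := fun b => |Yb h.tree.connected θ ε c q.1 (a, b) i -
        Yb h.tree.connected θ ε c' q.2 (a, b) i|) (Eventually.of_forall fun b => by
        rw [Real.norm_eq_abs, abs_abs]; exact abs_le_one (h.Ysol_mem i) (h.Ysol_mem i))
  · filter_upwards [ae_injective (j := (id : V → V)) Function.injective_id] with a ha
    rw [Metric.tendsto_nhds]
    intro δ hδ
    obtain ⟨D0, hD0⟩ := cauchy_fixed h ha i (half_pos hδ)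
    obtain ⟨n1, h1⟩ := subset_ballF h.tree.connected c D0
    obtain ⟨n2, h2⟩ := subset_ballF h.tree.connected c' D0
    filter_upwards [eventually_ge_atTop (n1, n2)] with q hq
    rw [Real.dist_eq, sub_zero, abs_of_nonneg (integral_nonneg fun _ => abs_nonneg _)]
    exact (hD0 _ _ _ _ (good_ballF _ c q.1) (good_ballF _ c' q.2) (h1 _ hq.1)
      (h2 _ hq.2)).trans_lt (half_lt_self hδ)

lemma SI_cyl (h : Par G θ ε r C) {o : V} {D0 D : Finset V} (hD : GoodAt G o D0) (hsub : D0 ⊆ D)
    (η : V → Bool) :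
    (SI G θ D 0 fun T => cylF (D0.filter fun v => η v = true) (D0.filter fun v => ¬ η v = true)
      (ind T)) / (SI G θ D 0 fun _ => 1) = 1 / 2 * wI G θ D0 (D0.filter fun v => η v = true) := by
  obtain ⟨c, hc, -, h1⟩ := SI_consistent h.tree h.hθ hD D hsub
  rw [h1 _ (fun x hx T => by
    have : ∀ v ∈ D0, ind (insert x T) v = ind T v := fun v hv => by
      have : v ≠ x := fun e => hx (e ▸ hv)
      simp [ind, this]
    unfold cylF
    rw [Finset.prod_congr rfl fun v hv => this v (Finset.mem_filter.1 hv).1,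
      Finset.prod_congr rfl fun v hv => congrArg (1 - ·) (this v (Finset.mem_filter.1 hv).1)]),
    h1 _ (fun _ _ _ => rfl), mul_div_mul_left _ _ hc.ne', SI_good h.tree h.hθ hD, SI_zero,
    Finset.sum_eq_single (D0.filter fun v => η v = true)]
  · unfold ind
    rw [cylF_ind, if_pos ⟨fun e he => he, fun e he h => by
      rw [Finset.mem_filter] at he h; exact he.2 h.2⟩]
    ring
  · intro T hT hne
    unfold ind
    rw [cylF_ind, if_neg, mul_zero]
    rintro ⟨a, b⟩
    refine hne (Finset.Subset.antisymm (fun v hv => ?_) a)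
    have hv' := Finset.mem_powerset.1 hT hv
    by_contra hcon
    exact b v (Finset.mem_filter.2 ⟨hv', fun e => hcon (Finset.mem_filter.2 ⟨hv', e⟩)⟩) hv
  · intro hn
    exact (hn (Finset.mem_powerset.2 (Finset.filter_subset _ _))).elim

theorem factor_prod [Countable V] [G.LocallyFinite] (h : Par G θ ε r C) :
    ∃ Φ : (V → I) × (V × ℕ → I) → V → Bool, Measurable Φ ∧
      (∀ (g : G ≃g G) (ω ω' : (V → I) × (V × ℕ → I)), (∀ v, ω'.1 (g v) = ω.1 v) →
        (∀ v k, ω'.2 (g v, k) = ω.2 (v, k)) → ∀ v, Φ ω' (g v) = Φ ω v) ∧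
      IsFreeIsing G θ (((iidUniform V).prod (iidUniform (V × ℕ))).map Φ) := by
  have hc := h.tree.connected
  obtain ⟨o⟩ := hc.nonempty
  have : Nonempty V := ⟨o⟩
  set P := (iidUniform V).prod (iidUniform (V × ℕ)) with hP
  obtain ⟨φ, hφ, hlim⟩ := diag P (ι := V × (V × ℕ))
    (X := fun p n ω => Yb hc θ ε p.1 n ω p.2) (fun p n => h.measurable_Yb p.1 n p.2)
    (fun p n ω => h.Ysol_mem p.2) (fun p => h.pair_tendsto p.1 p.1 p.2)
  have mL : ∀ c i, Measurable fun ω => limsup (fun j => Yb hc θ ε c (φ j) ω i) atTop :=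
    fun c i => Measurable.limsup fun j => h.measurable_Yb c (φ j) i
  set Y : (V → I) × (V × ℕ → I) → V × ℕ → ℝ := fun ω i =>
    limsup (fun j => Yb hc θ ε i.1 (φ j) ω i) atTop with hY
  have mY : Measurable Y := measurable_pi_iff.2 fun i => mL i.1 i
  have hae : ∀ c, ∀ᵐ ω ∂P, Tendsto (fun j => Yb hc θ ε c (φ j) ω) atTop (𝓝 (Y ω)) := by
    intro c
    have : ∀ i, ∀ᵐ ω ∂P, Tendsto (fun j => Yb hc θ ε c (φ j) ω i) atTop (𝓝 (Y ω i)) := by
      intro i
      have t0 : Tendsto (fun j => (φ j, φ j)) atTop atTop := by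
        rw [← prod_atTop_atTop_eq]; exact hφ.prodMk hφ
      have t1 := (h.pair_tendsto c i.1 i).comp t0
      have mD : Measurable fun ω => |limsup (fun j => Yb hc θ ε c (φ j) ω i) atTop - Y ω i| :=
        ((mL c i).sub (mL i.1 i)).abs
      have cv : ∀ᵐ ω ∂P, Tendsto (fun j => |Yb hc θ ε c (φ j) ω i - Yb hc θ ε i.1 (φ j) ω i|)
          atTop (𝓝 |limsup (fun j => Yb hc θ ε c (φ j) ω i) atTop - Y ω i|) := by
        filter_upwards [hlim (c, i), hlim (i.1, i)] with ω h1 h2
        exact (h1.sub h2).abs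
      have bd : ∀ j ω, ‖|Yb hc θ ε c (φ j) ω i - Yb hc θ ε i.1 (φ j) ω i|‖ ≤ 1 := fun j ω => by
        rw [Real.norm_eq_abs, abs_abs]; exact abs_le_one (h.Ysol_mem i) (h.Ysol_mem i)
      have t2 := tendsto_integral_of_dominated_convergence (μ := P) (fun _ => 1)
        (fun j => ((h.bm_Yb c (φ j) i).sub (h.bm_Yb i.1 (φ j) i)).abs.meas.aestronglyMeasurable)
        (integrable_const _) (fun j => Eventually.of_forall (bd j)) cv
      have z := tendsto_nhds_unique t2 t1
      rw [integral_eq_zero_iff_of_nonneg (fun _ => abs_nonneg _) (Integrable.of_bound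
        mD.aestronglyMeasurable 1 (cv.mono fun ω hω =>
          le_of_tendsto' hω.norm fun j => bd j ω))] at z
      filter_upwards [z, hlim (c, i)] with ω h1 h2
      rwa [← sub_eq_zero.1 (abs_eq_zero.1 h1)]
    filter_upwards [ae_all_iff.2 this] with ω hω
    exact tendsto_pi_nhds.2 hω
  have mP : ∀ v, Measurable fun ω => ∀ᶠ j in atTop, 1 / 2 < soft ε (Y ω) (v, j) := fun v => by
    simp only [eventually_atTop]
    exact Measurable.exists fun M => Measurable.forall fun j => Measurable.imp measurable_const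
      (measurableSet_setOfPred.1
        (measurableSet_lt measurable_const ((bm_soft ε _).meas.comp mY)))
  have mΦ : Measurable fun ω v => decide (∀ᶠ j in atTop, 1 / 2 < soft ε (Y ω) (v, j)) :=
    measurable_pi_iff.2 fun v => (Measurable.of_discrete (f := fun p : Prop => decide p)).comp
      (mP v)
  refine ⟨_, mΦ, fun g ω ω' h1 h2 v => ?_, Measure.isProbabilityMeasure_map mΦ.aemeasurable,
    fun D0 hD0 η => ?_⟩
  · have hb : ∀ c n, ballF hc (g c) n = (ballF hc c n).map g.toEquiv.toEmbedding := by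
      intro c n
      ext w
      obtain ⟨w, rfl⟩ := g.surjective w
      rw [mem_ballF, dist_iso hc, ← mem_ballF hc]
      exact (Finset.mem_map' g.toEquiv.toEmbedding).symm
    have : ∀ k, Y ω' (g v, k) = Y ω (v, k) := fun k => by
      simp only [hY, Yb, hb]
      congr 1
      ext j
      exact Ysol_map g (fun a b => by rw [h1, h1]) h2 v k
    simp only [soft, this]
  obtain ⟨⟨o', ho'⟩⟩ := hD0.nonempty
  have good := good_of_connected h.tree hD0 ho'
  have evD : ∀ D : Finset V, ∀ᶠ j in atTop, D ⊆ ballF hc o (φ j) := fun D => by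
    obtain ⟨n, hn⟩ := subset_ballF hc o D
    exact (hφ.eventually (eventually_ge_atTop n)).mono fun j hj => hn _ hj
  have law := decode_law P (Yn := fun j => Yb hc θ ε o (φ j))
    (fun j => measurable_pi_iff.2 (h.measurable_Yb o (φ j))) mY (hae o)
    (av := fun j c => SI G θ (ballF hc o (φ j)) 0 c / SI G θ (ballF hc o (φ j)) 0 fun _ => 1)
    (fun j => by simp [SI]) (B0 := 9 / ε ^ 2) (fun S => by
      filter_upwards [evD (S.image Prod.fst)] with j hj g hg hdep c w hw hcw
      have bm := hg.comp (measurable_pi_iff.2 (h.measurable_Yb o (φ j)))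
      have i1 := (bm.integrable P).integral_prod_left
      rw [integral_prod _ (bm.integrable P)]
      have e : ∀ x : ℝ, ∫ a, ∫ b, g (Yb hc θ ε o (φ j) (a, b)) ∂(iidUniform (V × ℕ))
          ∂(iidUniform V) - x = ∫ a, (∫ b, g (Yb hc θ ε o (φ j) (a, b)) ∂(iidUniform (V × ℕ)) - x)
          ∂(iidUniform V) := fun x => by
        rw [integral_sub i1 (integrable_const _)]; simp
      rw [e]
      simpa using norm_integral_le_of_norm_le_const (μ := iidUniform V)
        (f := fun a => ∫ b, g (Yb hc θ ε o (φ j) (a, b)) ∂(iidUniform (V × ℕ)) - _)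
        ((ae_injective (j := (id : V → V)) Function.injective_id).mono fun a ha =>
          finite_bound h ha S (fun q hq => hj (Finset.mem_image_of_mem _ hq)) hg hdep hw hcw))
    (D0.filter fun v => η v = true) (D0.filter fun v => ¬ η v = true)
  have z := tendsto_nhds_unique law (tendsto_const_nhds.congr'
    ((evD D0).mono fun j hj => (SI_cyl h good hj η).symm))
  have mS : MeasurableSet {τ : V → Bool | ∀ v ∈ D0, τ v = η v} :=
    measurableSet_setOfPred.2 (Measurable.forall fun v => measurable_const.imp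
      (measurableSet_setOfPred.1 (measurableSet_eq_fun (measurable_pi_apply v) measurable_const)))
  rw [Measure.map_apply mΦ mS, ← ofReal_measureReal]
  congr 1
  refine Eq.trans (congrArg _ ?_) (z.trans (congrArg _ ?_))
  · ext ω
    simp only [Set.mem_preimage, Set.mem_ofPred_eq, Finset.mem_filter, and_imp]
    constructor
    · intro H
      exact ⟨fun v hv e => of_decide_eq_true ((H v hv).trans e),
        fun v hv e x => e ((H v hv).symm.trans (decide_eq_true x))⟩
    · rintro ⟨H1, H2⟩ v hv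
      cases e : η v
      · exact decide_eq_false (H2 v hv (by simp [e]))
      · exact decide_eq_true (H1 v hv e)
  · refine Finset.prod_congr rfl fun e he => ?_
    induction e using Sym2.ind with
    | _ a b =>
      have he' := mk_mem_edgesIn.1 he
      simp [sp, spin, he'.1, he'.2.1]

lemma reindex_mp {M N : Type*} {j : M → N} (hj : Function.Injective j) :
    MeasurePreserving (fun (b : N → I) (m : M) => b (j m)) (iidUniform N) (iidUniform M) := by
  refine ⟨by fun_prop, Measure.eq_infinitePi _ fun s t ht => ?_⟩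
  rw [Measure.map_apply (by fun_prop) (.pi s.countable_toSet fun _ _ => ht _)]
  have : (fun (b : N → I) (m : M) => b (j m)) ⁻¹' Set.pi s t =
      Set.pi (s.image j) (Function.extend j t fun _ => Set.univ) := by
    ext b; simp [hj.extend_apply]
  rw [this, iidUniform, Measure.infinitePi_pi _ fun n hn => by
    obtain ⟨m, -, rfl⟩ := Finset.mem_image.1 hn
    rw [hj.extend_apply]; exact ht m, Finset.prod_image hj.injOn]
  simp only [hj.extend_apply]

lemma pair_mp : MeasurePreserving (fun ω : V × Option ℕ → I =>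
    ((fun v => ω (v, none), fun p => ω (p.1, some p.2)) : (V → I) × (V × ℕ → I)))
    (iidUniform (V × Option ℕ)) ((iidUniform V).prod (iidUniform (V × ℕ))) := by
  have hm : Measurable fun ω : V × Option ℕ → I =>
      ((fun v => ω (v, none), fun p => ω (p.1, some p.2)) : (V → I) × (V × ℕ → I)) := by fun_prop
  have h1 := piecewise_mp {n : V × Option ℕ | n.2 = none}
  have h2 := (reindex_mp (j := fun v : V => (v, (none : Option ℕ)))
    fun a b h => (Prod.ext_iff.1 h).1).prod
    (reindex_mp (j := fun p : V × ℕ => (p.1, some p.2)) fun a b h => by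
      simp only [Prod.mk.injEq, Option.some.injEq] at h; exact Prod.ext h.1 h.2)
  refine ⟨hm, ?_⟩
  conv_lhs => rw [← h1.map_eq]
  rw [Measure.map_map hm h1.measurable, ← h2.map_eq]
  congr 1

theorem factor {V : Type} {G : SimpleGraph V} [Countable V] [G.LocallyFinite] (hG : G.IsTree)
    {d : ℕ} (hd : ∀ v, G.degree v ≤ d) (hd2 : 2 ≤ d) (hθ : 0 ≤ θ) (h1 : (d - 1) * θ ^ 2 < 1) :
    ∃ Φ : (V → I) → V → Bool, Measurable Φ ∧
      (∀ (g : G ≃g G) (U : V → I), Φ (fun v => U (g.symm v)) = fun v => Φ U (g.symm v)) ∧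
      IsFreeIsing G θ ((iidUniform V).map Φ) := by
  obtain ⟨ε, r, C, h⟩ := exists_par hG hd hd2 hθ h1
  obtain ⟨Φ, m, e, l⟩ := factor_prod h
  obtain ⟨spl, -, hmp⟩ := exists_split (Option ℕ)
  have mp := pair_mp.comp (hmp V)
  refine ⟨_, m.comp mp.measurable, fun g U => funext fun v => ?_, ?_⟩
  · obtain ⟨v, rfl⟩ := g.surjective v
    rw [g.symm_apply_apply]
    exact e g _ _ (fun v => by simp) (fun v k => by simp) v
  · rwa [← mp.map_eq, Measure.map_map m mp.measurable] at l

end Vale.Agent.P161
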