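import Vale.Agent.P161.Picard
import Vale.Agent.P143.Limit

namespace Vale.Agent.P161

open MeasureTheory unitInterval Classical
open Vale.Agent.P143 (BM iidUniform)

variable {V : Type*} {G : SimpleGraph V} {θ ε r C : ℝ} {D : Finset V}

lemma integral_update {N : Type*} [inst : DecidableEq N] (n : N) {F : (N → I) → ℝ} (hF : BM F) :
    ∫ b, F b ∂(iidUniform N) =
      ∫ b, ∫ t : I, F (Function.update b n t) ∂volume ∂(iidUniform N) := by
  have : inst = fun a b => Classical.propDecidable (a = b) := Subsingleton.elim _ _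
  subst this
  exact P143.integral_update n hF

noncomputable def lik (ε : ℝ) (J : Finset (V × ℕ)) (T : Finset V) (y : V × ℕ → ℝ) : ℝ :=
  ∏ i ∈ J, dens ε (ind T i.1) (y i)

noncomputable def below (D : Finset V) (lt : V → V → Prop) (i : V × ℕ) : Finset (V × ℕ) :=
  (D ×ˢ Finset.range (i.2 + 1)).filter fun p => p.2 < i.2 ∨ (p.2 = i.2 ∧ lt p.1 i.1)

lemma mem_below {lt : V → V → Prop} {i p : V × ℕ} :
    p ∈ below D lt i ↔ p.1 ∈ D ∧ (p.2 < i.2 ∨ (p.2 = i.2 ∧ lt p.1 i.1)) := by
  simp only [below, Finset.mem_filter, Finset.mem_product, Finset.mem_range]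
  constructor
  · exact fun h => ⟨h.1.1, h.2⟩
  · exact fun h => ⟨⟨h.1, by rcases h.2 with h | h <;> omega⟩, h.2⟩

lemma lik_below (hε : ε ∈ Set.Ioc (0 : ℝ) (1 / 2)) {T : Finset V} (hT : T ⊆ D)
    (lt : V → V → Prop) (i : V × ℕ) {y : V × ℕ → ℝ} (hy : ∀ p, y p ∈ Set.Icc (0 : ℝ) 1) :
    lik ε (below D lt i) T y = (∏ p ∈ below D lt i, dens ε 0 (y p)) *
      tilt (state ε lt y i) T := by
  have h1 : ∀ p : V × ℕ,
      dens ε (ind T p.1) (y p) = dens ε 0 (y p) * Real.exp (ind T p.1 * lam ε (y p)) := by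
    intro p
    unfold ind
    split_ifs
    · rw [one_mul, dens_one_eq hε (hy p)]
    · simp
  unfold lik tilt
  simp only [h1]
  rw [Finset.prod_mul_distrib, ← Real.exp_sum, ← Real.exp_sum]
  congr 2
  unfold below
  rw [Finset.sum_filter, Finset.sum_product]
  have h2 : ∀ f ∈ D, (∑ j ∈ Finset.range (i.2 + 1),
      if j < i.2 ∨ (j = i.2 ∧ lt f i.1) then ind T f * lam ε (y (f, j)) else 0) =
      if f ∈ T then state ε lt y i f else 0 := by
    intro f _
    rw [Finset.sum_range_succ, Finset.sum_congr rfl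
      (fun j hj => if_pos (Or.inl (Finset.mem_range.1 hj)))]
    unfold ind state
    by_cases hf : f ∈ T <;> simp [hf]
  rw [Finset.sum_congr rfl h2, ← Finset.sum_filter, Finset.filter_mem_eq_inter,
    Finset.inter_eq_right.2 hT]

lemma SI_zero (g : Finset V → ℝ) : SI G θ D 0 g = ∑ T ∈ D.powerset, wI G θ D T * g T := by
  simp [SI, tilt]

lemma posterior (h : Par G θ ε r C) (lt : V → V → Prop) (i : V × ℕ) {y : V × ℕ → ℝ}
    (hy : ∀ p, y p ∈ Set.Icc (0 : ℝ) 1) :
    SI G θ D 0 (fun T => ind T i.1 * lik ε (below D lt i) T y) =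
      mI G θ D (state ε lt y i) i.1 * SI G θ D 0 fun T => lik ε (below D lt i) T y := by
  have key : ∀ f : Finset V → ℝ, SI G θ D 0 (fun T => f T * lik ε (below D lt i) T y) =
      (∏ p ∈ below D lt i, dens ε 0 (y p)) * SI G θ D (state ε lt y i) f := by
    intro f
    rw [SI_zero, SI, Finset.mul_sum]
    refine Finset.sum_congr rfl fun T hT => ?_
    rw [lik_below h.hε (Finset.mem_powerset.1 hT) lt i hy]; ring
  have k1 := key fun _ => 1
  simp only [one_mul] at k1
  rw [key, k1, mI]
  have := (SI_pos (G := G) h.hθ D (state ε lt y i)).ne'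
  field_simp

lemma state_congr {lt : V → V → Prop} {y y' : V × ℕ → ℝ} {i : V × ℕ}
    {f : V} (h : ∀ j, (j < i.2 ∨ (j = i.2 ∧ lt f i.1)) → y (f, j) = y' (f, j)) :
    state ε lt y i f = state ε lt y' i f := by
  unfold state
  congr 1
  · exact Finset.sum_congr rfl fun j hj => by rw [h j (Or.inl (Finset.mem_range.1 hj))]
  · split_ifs with hl
    · rw [h i.2 (Or.inr ⟨rfl, hl⟩)]
    · rfl

lemma mI_congr {l l' : V → ℝ} (h : ∀ v ∈ D, l v = l' v) (v : V) :
    mI G θ D l v = mI G θ D l' v := by
  have : ∀ g, SI G θ D l g = SI G θ D l' g := fun g => Finset.sum_congr rfl fun T hT => by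
    rw [show tilt l T = tilt l' T from Finset.prod_congr rfl fun w hw => by
      rw [h w (Finset.mem_powerset.1 hT hw)]]
  unfold mI; rw [this, this]

lemma mI_state_congr {lt : V → V → Prop} {y y' : V × ℕ → ℝ} {i : V × ℕ}
    (h : ∀ p ∈ below D lt i, y p = y' p) :
    mI G θ D (state ε lt y i) i.1 = mI G θ D (state ε lt y' i) i.1 :=
  mI_congr (fun f hf => state_congr fun j hj => h (f, j) (mem_below.2 ⟨hf, hj⟩)) _

lemma lik_congr {J : Finset (V × ℕ)} {T : Finset V} {y y' : V × ℕ → ℝ}
    (h : ∀ p ∈ J, y p = y' p) : lik ε J T y = lik ε J T y' :=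
  Finset.prod_congr rfl fun p hp => by rw [h p hp]

def cf (b : V × ℕ → I) : V × ℕ → ℝ := fun p => b p

lemma cf_mem (b : V × ℕ → I) (p : V × ℕ) : cf b p ∈ Set.Icc (0 : ℝ) 1 := (b p).2

lemma measurable_cf : Measurable (cf : (V × ℕ → I) → V × ℕ → ℝ) :=
  measurable_pi_iff.2 fun p => measurable_subtype_coe.comp (measurable_pi_apply p)

lemma cf_update (b : V × ℕ → I) (i : V × ℕ) (t : I) :
    cf (Function.update b i t) = Function.update (cf b) i t := by
  funext p
  by_cases h : p = i
  · subst h; simp [cf]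
  · simp [cf, h]

lemma bm_lik (hε : ε ∈ Set.Ioc (0 : ℝ) (1 / 2)) (J : Finset (V × ℕ)) (T : Finset V) :
    BM fun b => lik ε J T (cf b) :=
  BM.prod J fun p _ => BM.of_mem (measurable_dens measurable_const
    (measurable_pi_iff.1 measurable_cf p)) fun b => dens_mem hε (ind_mem _ _) (b p).2

lemma lik_nonneg (hε : ε ∈ Set.Ioc (0 : ℝ) (1 / 2)) (J : Finset (V × ℕ)) (T : Finset V)
    (b : V × ℕ → I) : 0 ≤ lik ε J T (cf b) :=
  Finset.prod_nonneg fun p _ => (dens_mem hε (ind_mem _ _) (b p).2).1

lemma lik_insert {J : Finset (V × ℕ)} {i : V × ℕ} (hi : i ∉ J) (T : Finset V) (y : V × ℕ → ℝ)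
    (t : ℝ) : lik ε (insert i J) T (Function.update y i t) = dens ε (ind T i.1) t * lik ε J T y := by
  rw [lik, Finset.prod_insert hi, Function.update_self]
  congr 1
  exact lik_congr fun p hp => Function.update_of_ne (by rintro rfl; exact hi hp) _ _

lemma bm_SI {X : Type*} [MeasurableSpace X] {F : Finset V → X → ℝ} (hF : ∀ T, BM (F T)) :
    BM fun x => SI G θ D 0 fun T => F T x :=
  BM.sum _ fun T _ => (BM.const _).mul (hF T)

lemma integral_SI {X : Type*} [MeasurableSpace X] (μ : Measure X) [IsFiniteMeasure μ]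
    {F : Finset V → X → ℝ} (hF : ∀ T, BM (F T)) :
    ∫ x, SI G θ D 0 (fun T => F T x) ∂μ = SI G θ D 0 fun T => ∫ x, F T x ∂μ := by
  unfold SI
  rw [integral_finsetSum _ fun T _ => ((BM.const _).mul (hF T)).integrable _]
  simp only [integral_const_mul]

lemma mul_SI (a : ℝ) (l : V → ℝ) (f : Finset V → ℝ) :
    a * SI G θ D l f = SI G θ D l fun T => a * f T := by
  unfold SI
  rw [Finset.mul_sum]
  exact Finset.sum_congr rfl fun _ _ => by ring

def Dep (g : (V × ℕ → ℝ) → ℝ) (J : Finset (V × ℕ)) : Prop :=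
  ∀ y y', (∀ p ∈ J, y p = y' p) → g y = g y'

lemma Dep.mono {g : (V × ℕ → ℝ) → ℝ} {J J' : Finset (V × ℕ)} (h : Dep g J) (hJ : J ⊆ J') :
    Dep g J' := fun y y' hy => h y y' fun p hp => hy p (hJ hp)

lemma measurable_mstate (lt : V → V → Prop) (i : V × ℕ) :
    Measurable fun y : V × ℕ → ℝ => mI G θ D (state ε lt y i) i.1 :=
  measurable_mI D (measurable_state (lt := fun _ => lt) (fun _ _ => MeasurableSet.const _)
    (fun p => measurable_pi_apply p) i) _

lemma Par.measurable_Y (h : Par G θ ε r C) (D : Finset V) (lt : V → V → Prop) :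
    Measurable fun b => Ysol ε (mI G θ D) lt b :=
  measurable_pi_iff.2 (h.measurable_Ysol (lt := fun _ => lt) (fun _ _ => MeasurableSet.const _)
    fun p => measurable_pi_apply p)

lemma closed_below {K : Type*} [LinearOrder K] (key : V → K) (i : V × ℕ) :
    Closed D (fun f g => key f < key g) (below D (fun f g => key f < key g) i) := by
  have hlex : ∀ p q : V × ℕ, toLex (p.2, key p.1) < toLex (q.2, key q.1) ↔
      (p.2 < q.2 ∨ (p.2 = q.2 ∧ key p.1 < key q.1)) := fun p q => Prod.Lex.toLex_lt_toLex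
  intro p hp f hf j hj
  rw [Finset.mem_coe, mem_below] at hp ⊢
  exact ⟨hf, (hlex (f, j) i).1 (((hlex (f, j) p).2 hj).trans ((hlex p i).2 hp.2))⟩

lemma closed_box (lt : V → V → Prop) (L : ℕ) :
    Closed D lt ((D ×ˢ Finset.range L : Finset (V × ℕ)) : Set (V × ℕ)) := by
  intro p hp f hf j hj
  rw [Finset.mem_coe, Finset.mem_product, Finset.mem_range] at hp ⊢
  exact ⟨hf, by rcases hj with h | h <;> omega⟩

theorem law_identity (h : Par G θ ε r C) {K : Type*} [LinearOrder K] {key : V → K}
    (hkey : Function.Injective key) (J : Finset (V × ℕ)) :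
    (∀ p ∈ J, p.1 ∈ D) → Closed D (fun f g => key f < key g) J →
    ∀ g : (V × ℕ → ℝ) → ℝ, BM g → Dep g J →
      SI G θ D 0 (fun _ => 1) *
        ∫ b, g (Ysol ε (mI G θ D) (fun f g => key f < key g) b) ∂(iidUniform (V × ℕ)) =
        ∫ b, g (cf b) * SI G θ D 0 (fun T => lik ε J T (cf b)) ∂(iidUniform (V × ℕ)) := by
  induction J using Finset.strongInduction with
  | _ J ih =>
  intro hJ hcl g hg hdep
  set lt : V → V → Prop := fun f g => key f < key g with hlt
  rcases J.eq_empty_or_nonempty with rfl | hne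
  · have : ∀ y, g y = g 0 := fun y => hdep _ _ (by simp)
    simp [this, lik, mul_comm]
  obtain ⟨i, hi, hmax⟩ := Finset.exists_max_image J (fun p => toLex (p.2, key p.1)) hne
  have hlex : ∀ p q : V × ℕ, toLex (p.2, key p.1) < toLex (q.2, key q.1) ↔
      (p.2 < q.2 ∨ (p.2 = q.2 ∧ lt p.1 q.1)) := fun p q => Prod.Lex.toLex_lt_toLex
  have hbel : J.erase i = below D lt i := by
    ext p
    rw [Finset.mem_erase, mem_below]
    constructor
    · rintro ⟨h1, h2⟩
      refine ⟨hJ p h2, (hlex p i).1 (lt_of_le_of_ne (hmax p h2) fun h => h1 ?_)⟩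
      have h3 := Prod.ext_iff.1 (toLex.injective h)
      exact Prod.ext (hkey h3.2) h3.1
    · rintro ⟨h1, h2⟩
      refine ⟨?_, hcl i hi p.1 h1 p.2 h2⟩
      rintro rfl
      exact lt_irrefl _ ((hlex _ _).2 h2)
  have hnot : i ∉ below D lt i := hbel ▸ Finset.notMem_erase i J
  have hJeq : J = insert i (below D lt i) := by rw [← hbel, Finset.insert_erase hi]
  have hcl' : Closed D lt (below D lt i) := closed_below key i
  have hbH : ∀ p ∈ below D lt i, p.1 ∈ D := fun p hp => (mem_below.1 hp).1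
  have hbne : ∀ p ∈ below D lt i, p ≠ i := fun p hp h => hnot (h ▸ hp)
  have mm := measurable_mstate (G := G) (θ := θ) (ε := ε) (D := D) lt i
  set F : (V × ℕ → ℝ) → ℝ := fun y =>
    ∫ t : I, g (Function.update y i t) * dens ε (mI G θ D (state ε lt y i) i.1) t with hF
  have bmF : BM F := by
    refine BM.integral_right (F := fun q : (V × ℕ → ℝ) × I =>
      g (Function.update q.1 i q.2) * dens ε (mI G θ D (state ε lt q.1 i) i.1) q.2) (BM.mul ?_ ?_)
    · exact hg.comp (measurable_update'.comp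
        (measurable_fst.prodMk (measurable_subtype_coe.comp measurable_snd)))
    · exact BM.of_mem (measurable_dens (mm.comp measurable_fst)
        (measurable_subtype_coe.comp measurable_snd))
        fun q => dens_mem h.hε (mI_mem h.hθ _ _ _) q.2.2
  have upd : ∀ (y y' : V × ℕ → ℝ) (t : ℝ), (∀ p ∈ below D lt i, y p = y' p) → y i = t →
      g y = g (Function.update y' i t) := by
    intro y y' t h1 h2
    refine hdep _ _ fun p hp => ?_
    rw [hJeq, Finset.mem_insert] at hp
    rcases hp with rfl | hp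
    · simp [h2]
    · rw [Function.update_of_ne (hbne p hp), h1 p hp]
  have depF : Dep F (below D lt i) := by
    intro y y' h
    simp only [hF]
    rw [mI_state_congr h]
    congr 1
    ext t
    rw [upd (Function.update y i t) y' t
      (fun p hp => by rw [Function.update_of_ne (hbne p hp), h p hp]) (by simp)]
  have IH := ih (below D lt i) (hbel ▸ Finset.erase_ssubset hi) hbH hcl' F bmF depF
  rw [integral_update i (hg.comp (h.measurable_Y D lt)), integral_update i
    ((hg.comp measurable_cf).mul (bm_SI fun T => bm_lik h.hε J T))]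
  refine Eq.trans (congrArg _ (integral_congr_ae (Filter.Eventually.of_forall fun b => ?_)))
    (IH.trans (integral_congr_ae (Filter.Eventually.of_forall fun b => ?_)))
  · simp only [hF]
    rw [← integral_Qf h.hε (mI_mem h.hθ _ _ _)
      (fun x => g (Function.update (Ysol ε (mI G θ D) lt b) i x))]
    congr 1
    ext t
    have agree : ∀ p ∈ below D lt i,
        Ysol ε (mI G θ D) lt (Function.update b i t) p = Ysol ε (mI G θ D) lt b p :=
      h.Ysol_congr hcl' fun p hp => Function.update_of_ne (hbne p hp) _ _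
    refine upd _ _ _ agree ?_
    rw [h.Ysol_fixed, step, mI_state_congr agree, Function.update_self]
  · simp only [hF]
    rw [← integral_mul_const]
    congr 1
    ext t
    rw [cf_update, mul_assoc, hJeq]
    congr 1
    simp only [lik_insert hnot]
    rw [dens_affine ε (mI G θ D _ _), add_mul, mul_right_comm, ← posterior h lt i (cf_mem b),
      SI_zero, SI_zero, SI_zero, Finset.mul_sum, Finset.sum_mul, ← Finset.sum_add_distrib]
    refine Finset.sum_congr rfl fun T _ => ?_
    rw [dens_affine ε (ind T i.1)]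
    ring

lemma lik_extend (hε : ε ∈ Set.Ioc (0 : ℝ) (1 / 2)) {g : (V × ℕ → ℝ) → ℝ} (hg : BM g)
    {J : Finset (V × ℕ)} (hdep : Dep g J) (T : Finset V) {J' : Finset (V × ℕ)} (hJ : J ⊆ J') :
    ∫ b, g (cf b) * lik ε J' T (cf b) ∂(iidUniform (V × ℕ)) =
      ∫ b, g (cf b) * lik ε J T (cf b) ∂(iidUniform (V × ℕ)) := by
  have key : ∀ S : Finset (V × ℕ), Disjoint S J →
      ∫ b, g (cf b) * lik ε (S ∪ J) T (cf b) ∂(iidUniform (V × ℕ)) =
      ∫ b, g (cf b) * lik ε J T (cf b) ∂(iidUniform (V × ℕ)) := by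
    intro S
    induction S using Finset.induction_on with
    | empty => simp
    | insert i S hi ih =>
      intro hd
      rw [Finset.disjoint_insert_left] at hd
      have hn : i ∉ S ∪ J := by simp [hi, hd.1]
      rw [← ih hd.2, Finset.insert_union,
        integral_update i ((hg.comp measurable_cf).mul (bm_lik hε _ T))]
      refine integral_congr_ae (Filter.Eventually.of_forall fun b => ?_)
      have : ∀ t : ℝ, g (Function.update (cf b) i t) = g (cf b) := fun t =>
        hdep _ _ fun p hp => Function.update_of_ne (by rintro rfl; exact hd.1 hp) _ _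
      simp only [cf_update, lik_insert hn, this, mul_left_comm _ (dens _ _ _), integral_mul_const,
        integral_dens, one_mul]
  rw [← key (J' \ J) Finset.sdiff_disjoint, Finset.sdiff_union_of_subset hJ]

lemma lik_insert_left {J : Finset (V × ℕ)} {x : V} (hx : ∀ p ∈ J, p.1 ≠ x) (T : Finset V)
    (y : V × ℕ → ℝ) : lik ε J (insert x T) y = lik ε J T y :=
  Finset.prod_congr rfl fun p hp => by simp [ind, hx p hp]

/-- expectation under the finite system in terms of the planted model -/
lemma law_SI (h : Par G θ ε r C) {K : Type*} [LinearOrder K] {key : V → K}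
    (hkey : Function.Injective key) {J J' : Finset (V × ℕ)} (hJ : J ⊆ J') (h1 : ∀ p ∈ J', p.1 ∈ D)
    (h2 : Closed D (fun f g => key f < key g) J') {g : (V × ℕ → ℝ) → ℝ} (hg : BM g)
    (hdep : Dep g J) :
    SI G θ D 0 (fun _ => 1) *
      ∫ b, g (Ysol ε (mI G θ D) (fun f g => key f < key g) b) ∂(iidUniform (V × ℕ)) =
      SI G θ D 0 fun T => ∫ b, g (cf b) * lik ε J T (cf b) ∂(iidUniform (V × ℕ)) := by
  rw [law_identity h hkey J' h1 h2 g hg (hdep.mono hJ)]
  simp only [mul_SI]
  rw [integral_SI _ fun T => (hg.comp measurable_cf).mul (bm_lik h.hε J' T)]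
  simp only [lik_extend h.hε hg hdep _ hJ]

lemma law_SI_m (h : Par G θ ε r C) {K : Type*} [LinearOrder K] {key : V → K}
    (hkey : Function.Injective key) (i : V × ℕ) {J : Finset (V × ℕ)}
    (hJ : J ⊆ below D (fun f g => key f < key g) i) {g : (V × ℕ → ℝ) → ℝ} (hg : BM g)
    (hdep : Dep g J) :
    SI G θ D 0 (fun _ => 1) *
      ∫ b, g (Ysol ε (mI G θ D) (fun f g => key f < key g) b) *
        mI G θ D (state ε (fun f g => key f < key g)
          (Ysol ε (mI G θ D) (fun f g => key f < key g) b) i) i.1 ∂(iidUniform (V × ℕ)) =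
      SI G θ D 0 fun T => ind T i.1 * ∫ b, g (cf b) * lik ε J T (cf b) ∂(iidUniform (V × ℕ)) := by
  set lt : V → V → Prop := fun f g => key f < key g with hlt
  have bm : BM fun y : V × ℕ → ℝ => mI G θ D (state ε lt y i) i.1 :=
    BM.of_mem (measurable_mstate lt i) fun y => mI_mem h.hθ _ _ _
  rw [law_identity h hkey (below D lt i) (fun p hp => (mem_below.1 hp).1) (closed_below key i)
    (fun y => g y * mI G θ D (state ε lt y i) i.1) (hg.mul bm)
    (fun y y' hy => by simp only; rw [(hdep.mono hJ) y y' hy, mI_state_congr hy])]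
  simp only [mul_assoc, ← posterior h lt i (cf_mem _)]
  simp only [mul_SI]
  rw [integral_SI _ fun T => (hg.comp measurable_cf).mul ((BM.const _).mul (bm_lik h.hε _ T))]
  simp only [mul_left_comm _ (ind _ _), integral_const_mul, lik_extend h.hε hg hdep _ hJ]

theorem law_transfer (h : Par G θ ε r C) {K : Type*} [LinearOrder K] {key : V → K}
    (hkey : Function.Injective key) {o : V} (hD : GoodAt G o D) {D' : Finset V} (hsub : D ⊆ D')
    {L : ℕ} {g : (V × ℕ → ℝ) → ℝ} (hg : BM g) (hdep : Dep g (D ×ˢ Finset.range L)) :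
    ∫ b, g (Ysol ε (mI G θ D') (fun f g => key f < key g) b) ∂(iidUniform (V × ℕ)) =
      ∫ b, g (Ysol ε (mI G θ D) (fun f g => key f < key g) b) ∂(iidUniform (V × ℕ)) := by
  obtain ⟨c, hc, -, h1⟩ := SI_consistent h.tree h.hθ hD D' hsub
  have a := law_SI h hkey (Finset.product_subset_product_left hsub) (D := D')
    (fun p hp => (Finset.mem_product.1 hp).1) (closed_box _ L) hg hdep
  have b := law_SI h hkey (Finset.Subset.refl _) (D := D)
    (fun p hp => (Finset.mem_product.1 hp).1) (closed_box _ L) hg hdep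
  rw [h1 _ (fun _ _ _ => rfl), h1 _ (fun x hx T => by
    simp only [lik_insert_left (J := D ×ˢ Finset.range L) (x := x)
      fun p hp e => hx (e ▸ (Finset.mem_product.1 hp).1)]), ← b, ← mul_assoc] at a
  exact mul_left_cancel₀ (mul_pos hc (SI_pos h.hθ D 0)).ne' a

theorem orth (h : Par G θ ε r C) {K : Type*} [LinearOrder K] {key : V → K}
    (hkey : Function.Injective key) {o : V} (hD : GoodAt G o D) {D' : Finset V} (hsub : D ⊆ D')
    {i : V × ℕ} (hi : i.1 ∈ D) {g : (V × ℕ → ℝ) → ℝ} (hg : BM g)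
    (hdep : Dep g (below D (fun f g => key f < key g) i)) :
    ∫ b, g (Ysol ε (mI G θ D') (fun f g => key f < key g) b) *
        mI G θ D' (state ε (fun f g => key f < key g)
          (Ysol ε (mI G θ D') (fun f g => key f < key g) b) i) i.1 ∂(iidUniform (V × ℕ)) =
      ∫ b, g (Ysol ε (mI G θ D) (fun f g => key f < key g) b) *
        mI G θ D (state ε (fun f g => key f < key g)
          (Ysol ε (mI G θ D) (fun f g => key f < key g) b) i) i.1 ∂(iidUniform (V × ℕ)) := by
  obtain ⟨c, hc, -, h1⟩ := SI_consistent h.tree h.hθ hD D' hsub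
  have a := law_SI_m h hkey i (D := D') (fun p hp => by
    rw [mem_below] at hp ⊢; exact ⟨hsub hp.1, hp.2⟩) hg hdep
  have b := law_SI_m h hkey i (D := D) (Finset.Subset.refl _) hg hdep
  rw [h1 _ (fun _ _ _ => rfl), h1 _ (fun x hx T => by
    have : i.1 ≠ x := fun e => hx (e ▸ hi)
    simp only [lik_insert_left (J := below D (fun f g => key f < key g) i) (x := x)
      fun p hp e => hx (e ▸ (mem_below.1 hp).1), ind, Finset.mem_insert, this, false_or]),
    ← b, ← mul_assoc] at a
  exact mul_left_cancel₀ (mul_pos hc (SI_pos h.hθ D 0)).ne' a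

end Vale.Agent.P161
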