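import Vale.Agent.P161.Tree

namespace Vale.Agent.P161

open SimpleGraph Classical

variable {V : Type*} {G : SimpleGraph V} {θ : ℝ}

noncomputable def sp (T : Finset V) (v : V) : ℝ := if v ∈ T then 1 else -1

noncomputable def ind (T : Finset V) (v : V) : ℝ := if v ∈ T then 1 else 0

noncomputable def edgesIn (G : SimpleGraph V) (D : Finset V) : Finset (Sym2 V) :=
  D.sym2.filter (· ∈ G.edgeSet)

noncomputable def wI (G : SimpleGraph V) (θ : ℝ) (D T : Finset V) : ℝ :=
  ∏ e ∈ edgesIn G D, (1 + θ * (e.map (sp T)).mul) / 2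

noncomputable def tilt (l : V → ℝ) (T : Finset V) : ℝ := ∏ v ∈ T, Real.exp (l v)

noncomputable def SI (G : SimpleGraph V) (θ : ℝ) (D : Finset V) (l : V → ℝ)
    (g : Finset V → ℝ) : ℝ :=
  ∑ T ∈ D.powerset, wI G θ D T * tilt l T * g T

noncomputable def mI (G : SimpleGraph V) (θ : ℝ) (D : Finset V) (l : V → ℝ) (v : V) : ℝ :=
  SI G θ D l (fun T => ind T v) / SI G θ D l fun _ => 1

noncomputable def msg (θ t : ℝ) : ℝ :=
  Real.log ((1 + θ) * Real.exp t + (1 - θ)) - Real.log ((1 - θ) * Real.exp t + (1 + θ))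

lemma ind_mem (T : Finset V) (e : V) : ind T e ∈ Set.Icc (0 : ℝ) 1 := by
  unfold ind; split_ifs <;> simp

lemma mk_mem_edgesIn {D : Finset V} {a b : V} :
    s(a, b) ∈ edgesIn G D ↔ a ∈ D ∧ b ∈ D ∧ G.Adj a b := by
  simp [edgesIn, and_assoc]

lemma wI_pos (hθ : θ ∈ Set.Ico (0 : ℝ) 1) (D T : Finset V) : 0 < wI G θ D T := by
  refine Finset.prod_pos fun e _ => ?_
  induction e using Sym2.ind with
  | _ a b =>
    simp only [Sym2.map_mk, Sym2.mul_mk, sp]
    split_ifs <;> linarith [hθ.1, hθ.2]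

lemma wI_congr {D T T' : Finset V} (h : ∀ v ∈ D, v ∈ T ↔ v ∈ T') : wI G θ D T = wI G θ D T' := by
  refine Finset.prod_congr rfl fun e he => ?_
  induction e using Sym2.ind with
  | _ a b =>
    rw [mk_mem_edgesIn] at he
    simp only [Sym2.map_mk, Sym2.mul_mk, sp, h a he.1, h b he.2.1]

lemma tilt_pos (l : V → ℝ) (T : Finset V) : 0 < tilt l T :=
  Finset.prod_pos fun _ _ => Real.exp_pos _

lemma SI_pos (hθ : θ ∈ Set.Ico (0 : ℝ) 1) (D : Finset V) (l : V → ℝ) :
    0 < SI G θ D l fun _ => 1 :=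
  Finset.sum_pos (fun T _ => by have := wI_pos (G := G) hθ D T; have := tilt_pos l T; positivity)
    ⟨∅, by simp⟩

lemma mI_mem (hθ : θ ∈ Set.Ico (0 : ℝ) 1) (D : Finset V) (l : V → ℝ) (v : V) :
    mI G θ D l v ∈ Set.Icc (0 : ℝ) 1 := by
  have hp : ∀ T, 0 ≤ wI G θ D T * tilt l T := fun T =>
    (mul_pos (wI_pos hθ D T) (tilt_pos l T)).le
  refine ⟨div_nonneg (Finset.sum_nonneg fun T _ => mul_nonneg (hp T) (ind_mem T v).1)
    (SI_pos hθ D l).le, (div_le_one (SI_pos hθ D l)).2 (Finset.sum_le_sum fun T _ =>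
      mul_le_mul_of_nonneg_left (ind_mem T v).2 (hp T))⟩

lemma mI_of_notMem {D : Finset V} (l : V → ℝ) {v : V} (hv : v ∉ D) : mI G θ D l v = 0 := by
  unfold mI SI
  rw [Finset.sum_eq_zero, zero_div]
  intro T hT
  have : v ∉ T := fun h => hv (Finset.mem_powerset.1 hT h)
  simp [ind, this]

lemma msg_zero_left (t : ℝ) : msg 0 t = 0 := by simp [msg]

lemma msg_zero_right (θ : ℝ) : msg θ 0 = 0 := by
  unfold msg; simp only [Real.exp_zero, mul_one]; rw [sub_eq_zero]; congr 1; ring

lemma msg_lip (hθ : θ ∈ Set.Ico (0 : ℝ) 1) (s t : ℝ) : |msg θ s - msg θ t| ≤ θ * |s - t| := by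
  obtain ⟨h0, h1⟩ := hθ
  have pa : ∀ t, 0 < (1 + θ) * Real.exp t + (1 - θ) := fun t => by
    have := Real.exp_pos t; nlinarith
  have pb : ∀ t, 0 < (1 - θ) * Real.exp t + (1 + θ) := fun t => by
    have := Real.exp_pos t; nlinarith
  have hd : ∀ t, HasDerivAt (msg θ) ((1 + θ) * Real.exp t / ((1 + θ) * Real.exp t + (1 - θ)) -
      (1 - θ) * Real.exp t / ((1 - θ) * Real.exp t + (1 + θ))) t := fun t =>
    ((((Real.hasDerivAt_exp t).const_mul _).add_const _).log (pa t).ne').sub
      ((((Real.hasDerivAt_exp t).const_mul _).add_const _).log (pb t).ne')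
  have := Convex.norm_image_sub_le_of_norm_hasDerivWithin_le (s := Set.univ) (C := θ)
    (fun x _ => (hd x).hasDerivWithinAt) (fun x _ => by
      have a := pa x
      have b := pb x
      have e := Real.exp_pos x
      set E := Real.exp x
      have : (1 + θ) * E / ((1 + θ) * E + (1 - θ)) - (1 - θ) * E / ((1 - θ) * E + (1 + θ)) =
          4 * θ * E / (((1 + θ) * E + (1 - θ)) * ((1 - θ) * E + (1 + θ))) := by
        field_simp; ring
      rw [this, Real.norm_eq_abs, abs_of_nonneg (by positivity), div_le_iff₀ (by positivity)]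
      have h2 : 0 ≤ (1 - θ ^ 2) * (E - 1) ^ 2 := mul_nonneg (by nlinarith) (sq_nonneg _)
      nlinarith [mul_nonneg h0 h2]) convex_univ (Set.mem_univ t) (Set.mem_univ s)
  simpa using this

lemma SI_leaf (hθ : θ ∈ Set.Ico (0 : ℝ) 1) {D : Finset V} {x p : V} (hx : x ∈ D)
    (hp : ∀ y ∈ D, G.Adj x y → y = p) (l : V → ℝ) :
    ∃ c : ℝ, 0 < c ∧ (l x = 0 → p ∈ D → G.Adj x p → c = 1) ∧
      ∀ g : Finset V → ℝ, (∀ T, g (insert x T) = g T) → SI G θ D l g =
        c * SI G θ (D.erase x) (fun v => l v +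
          if v = p then msg (if p ∈ D ∧ G.Adj x p then θ else 0) (l x) else 0) g := by
  set θ' := if p ∈ D ∧ G.Adj x p then θ else 0 with hθ'
  set b : ℝ := if p ∈ D ∧ G.Adj x p then 1 / 2 else 1 with hb
  have t0 : 0 ≤ θ' := by rw [hθ']; split_ifs; exacts [hθ.1, le_rfl]
  have t1 : θ' < 1 := by rw [hθ']; split_ifs; exacts [hθ.2, zero_lt_one]
  have b0 : 0 < b := by rw [hb]; split_ifs <;> norm_num
  have e := Real.exp_pos (l x)
  have pa : 0 < (1 + θ') * Real.exp (l x) + (1 - θ') := by nlinarith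
  have pb : 0 < (1 - θ') * Real.exp (l x) + (1 + θ') := by nlinarith
  have hw : ∀ T, wI G θ D T = wI G θ (D.erase x) T * (b * (1 + θ' * (sp T x * sp T p))) := by
    intro T
    by_cases h : p ∈ D ∧ G.Adj x p
    · have h1 : edgesIn G D = insert s(x, p) (edgesIn G (D.erase x)) := by
        ext e
        induction e using Sym2.ind with
        | _ a c =>
          simp only [Finset.mem_insert, mk_mem_edgesIn, Finset.mem_erase, Sym2.eq_iff]
          constructor
          · rintro ⟨ha, hc, hac⟩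
            by_cases h1 : a = x
            · subst h1; exact Or.inl (Or.inl ⟨rfl, hp c hc hac⟩)
            by_cases h2 : c = x
            · subst h2; exact Or.inl (Or.inr ⟨hp a ha hac.symm, rfl⟩)
            exact Or.inr ⟨⟨h1, ha⟩, ⟨h2, hc⟩, hac⟩
          · rintro ((⟨rfl, rfl⟩ | ⟨rfl, rfl⟩) | ⟨ha, hc, hac⟩)
            · exact ⟨hx, h.1, h.2⟩
            · exact ⟨h.1, hx, h.2.symm⟩
            · exact ⟨ha.2, hc.2, hac⟩
      have h2 : s(x, p) ∉ edgesIn G (D.erase x) := by simp [mk_mem_edgesIn]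
      unfold wI
      rw [h1, Finset.prod_insert h2, hθ', hb, if_pos h, if_pos h, Sym2.map_mk, Sym2.mul_mk]
      ring
    · have h1 : edgesIn G D = edgesIn G (D.erase x) := by
        ext e
        induction e using Sym2.ind with
        | _ a c =>
          simp only [mk_mem_edgesIn, Finset.mem_erase]
          constructor
          · rintro ⟨ha, hc, hac⟩
            refine ⟨⟨?_, ha⟩, ⟨?_, hc⟩, hac⟩
            · rintro rfl; exact h (hp c hc hac ▸ ⟨hc, hac⟩)
            · rintro rfl; exact h (hp a ha hac.symm ▸ ⟨ha, hac.symm⟩)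
          · exact fun h => ⟨h.1.2, h.2.1.2, h.2.2⟩
      unfold wI
      rw [h1, hθ', hb, if_neg h, if_neg h]
      ring
  refine ⟨b * ((1 - θ') * Real.exp (l x) + (1 + θ')), by positivity, fun h0 h1 h2 => ?_,
    fun g hg => ?_⟩
  · rw [h0, hb, if_pos ⟨h1, h2⟩, Real.exp_zero]; ring
  have hD : D = insert x (D.erase x) := (Finset.insert_erase hx).symm
  unfold SI
  conv_lhs => enter [1]; rw [hD]
  rw [Finset.sum_powerset_insert (Finset.notMem_erase x D), ← Finset.sum_add_distrib,
    Finset.mul_sum]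
  refine Finset.sum_congr rfl fun T hT => ?_
  have hxT : x ∉ T := fun h => Finset.notMem_erase x D (Finset.mem_powerset.1 hT h)
  have w1 : wI G θ (D.erase x) (insert x T) = wI G θ (D.erase x) T :=
    wI_congr fun v hv => by simp [(Finset.mem_erase.1 hv).1]
  have s1 : θ' * sp (insert x T) p = θ' * sp T p := by
    by_cases h : p ∈ D ∧ G.Adj x p
    · simp [sp, h.2.ne']
    · rw [hθ', if_neg h, zero_mul, zero_mul]
  have s2 : sp (insert x T) x = 1 := by simp [sp]
  have s3 : sp T x = -1 := by simp [sp, hxT]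
  have t2 : tilt l (insert x T) = Real.exp (l x) * tilt l T := Finset.prod_insert hxT
  have t3 : tilt (fun v => l v + if v = p then msg θ' (l x) else 0) T =
      tilt l T * (if p ∈ T then Real.exp (msg θ' (l x)) else 1) := by
    unfold tilt
    simp only [Real.exp_add]
    rw [Finset.prod_mul_distrib]
    congr 1
    rw [← Finset.prod_ite_eq' T p fun _ => Real.exp (msg θ' (l x))]
    exact Finset.prod_congr rfl fun v _ => by split_ifs <;> simp
  rw [hw T, hw (insert x T), w1, s2, s3, t2, t3, hg, one_mul, s1]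
  unfold sp
  split_ifs
  · rw [msg, Real.exp_sub, Real.exp_log pa, Real.exp_log pb]
    have := mul_div_cancel₀ ((1 + θ') * Real.exp (l x) + (1 - θ')) pb.ne'
    linear_combination (-(b * wI G θ (D.erase x) T * tilt l T * g T)) * this
  · ring

lemma logistic_lip (s t : ℝ) :
    |Real.exp s / (1 + Real.exp s) - Real.exp t / (1 + Real.exp t)| ≤ |s - t| := by
  have pa : ∀ t, 0 < 1 + Real.exp t := fun t => by positivity
  have hd : ∀ t, HasDerivAt (fun t => Real.exp t / (1 + Real.exp t))
      ((Real.exp t * (1 + Real.exp t) - Real.exp t * Real.exp t) / (1 + Real.exp t) ^ 2) t :=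
    fun t => (Real.hasDerivAt_exp t).div ((Real.hasDerivAt_exp t).const_add _) (pa t).ne'
  have := Convex.norm_image_sub_le_of_norm_hasDerivWithin_le (s := Set.univ) (C := 1)
    (fun x _ => (hd x).hasDerivWithinAt) (fun x _ => by
      have e := Real.exp_pos x
      rw [Real.norm_eq_abs, abs_of_nonneg (div_nonneg (by nlinarith) (by positivity)),
        div_le_one (by positivity)]
      nlinarith) convex_univ (Set.mem_univ t) (Set.mem_univ s)
  simpa using this

theorem mI_lip (hG : G.IsTree) (hθ : θ ∈ Set.Ico (0 : ℝ) 1) (u : V) (D : Finset V) :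
    ∀ l l' : V → ℝ, |mI G θ D l u - mI G θ D l' u| ≤ ∑ w ∈ D, θ ^ G.dist u w * |l w - l' w| := by
  induction D using Finset.strongInduction with
  | _ D ih =>
  intro l l'
  have h0 := hθ.1
  by_cases hu : u ∈ D
  swap
  · rw [mI_of_notMem l hu, mI_of_notMem l' hu, sub_self, abs_zero]
    exact Finset.sum_nonneg fun _ _ => by positivity
  obtain ⟨x, hx, hmax⟩ := Finset.exists_max_image D (G.dist u) ⟨u, hu⟩
  by_cases hxu : x = u
  · have hD : D = {u} := Finset.eq_singleton_iff_unique_mem.2 ⟨hu, fun y hy => by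
      have := hmax y hy
      rw [hxu, SimpleGraph.dist_self, Nat.le_zero] at this
      exact (hG.connected.dist_eq_zero_iff.1 this).symm⟩
    have he : edgesIn G ({u} : Finset V) = ∅ := by
      ext e
      induction e using Sym2.ind with
      | _ a b =>
        simp only [mk_mem_edgesIn, Finset.mem_singleton, Finset.notMem_empty, iff_false]
        rintro ⟨rfl, rfl, h⟩; exact h.ne rfl
    have key : ∀ l : V → ℝ, mI G θ {u} l u = Real.exp (l u) / (1 + Real.exp (l u)) := by
      intro l
      unfold mI SI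
      rw [show ({u} : Finset V) = insert u ∅ from rfl,
        Finset.sum_powerset_insert (Finset.notMem_empty u),
        Finset.sum_powerset_insert (Finset.notMem_empty u)]
      simp [wI, he, tilt, ind]
    rw [hD, key, key]
    simpa using logistic_lip (l u) (l' u)
  obtain ⟨p, hp1, hp2⟩ := exists_parent hG.connected hxu
  have hp : ∀ y ∈ D, G.Adj x y → y = p := fun y hy hadj => by
    have := hmax y hy
    rcases hG.dist_eq_dist_add_one_of_adj u hadj with h | h
    · exact parent_unique hG hadj hp1 h.symm hp2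
    · omega
  have red : ∀ l : V → ℝ, mI G θ D l u = mI G θ (D.erase x) (fun v => l v +
      if v = p then msg (if p ∈ D ∧ G.Adj x p then θ else 0) (l x) else 0) u := by
    intro l
    obtain ⟨c, hc, -, h⟩ := SI_leaf hθ hx hp l
    unfold mI
    rw [h _ (fun T => by simp [ind, Ne.symm hxu]), h _ (fun _ => rfl), mul_div_mul_left _ _ hc.ne']
  rw [red l, red l']
  refine (ih _ (Finset.erase_ssubset hx) _ _).trans ?_
  rw [← Finset.add_sum_erase D _ hx]
  have hδ1 : |msg (if p ∈ D ∧ G.Adj x p then θ else 0) (l x) -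
      msg (if p ∈ D ∧ G.Adj x p then θ else 0) (l' x)| ≤ θ * |l x - l' x| := by
    split_ifs
    · exact msg_lip hθ _ _
    · simp only [msg_zero_left, sub_self, abs_zero]; positivity
  generalize (if p ∈ D ∧ G.Adj x p then θ else 0) = θ' at hδ1 ⊢
  set δ := |msg θ' (l x) - msg θ' (l' x)| with hδ
  calc _ ≤ ∑ w ∈ D.erase x, (θ ^ G.dist u w * |l w - l' w| +
        if w = p then θ ^ G.dist u p * δ else 0) := by
        refine Finset.sum_le_sum fun w _ => ?_
        split_ifs with h
        · rw [h, ← mul_add, add_sub_add_comm]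
          exact mul_le_mul_of_nonneg_left (abs_add_le _ _) (by positivity)
        · simp only [add_zero, le_refl]
    _ ≤ _ := by
        rw [Finset.sum_add_distrib, Finset.sum_ite_eq', add_comm]
        refine add_le_add_left ?_ _
        have : θ ^ G.dist u p * δ ≤ θ ^ G.dist u x * |l x - l' x| := by
          rw [← hp2, pow_succ, mul_assoc]
          exact mul_le_mul_of_nonneg_left hδ1 (by positivity)
        split_ifs
        · exact this
        · positivity

theorem SI_consistent (hG : G.IsTree) (hθ : θ ∈ Set.Ico (0 : ℝ) 1) {o : V} {D : Finset V}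
    (hD : GoodAt G o D) (D' : Finset V) : D ⊆ D' →
    ∃ c : ℝ, 0 < c ∧ (GoodAt G o D' → c = 1) ∧ ∀ g : Finset V → ℝ,
      (∀ x, x ∉ D → ∀ T, g (insert x T) = g T) → SI G θ D' 0 g = c * SI G θ D 0 g := by
  induction D' using Finset.strongInduction with
  | _ D' ih =>
  intro hsub
  rcases (D' \ D).eq_empty_or_nonempty with h | h
  · have : D' = D := Finset.Subset.antisymm (Finset.sdiff_eq_empty_iff_subset.1 h) hsub
    exact ⟨1, one_pos, fun _ => rfl, fun g _ => by rw [this, one_mul]⟩
  obtain ⟨x, hx, hmax⟩ := Finset.exists_max_image _ (G.dist o) h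
  rw [Finset.mem_sdiff] at hx
  have hxo : x ≠ o := fun h => hx.2 (h ▸ hD.1)
  obtain ⟨p, hp1, hp2⟩ := exists_parent hG.connected hxo
  have nochild : ∀ y ∈ D', G.Adj x y → G.dist o y ≠ G.dist o x + 1 := fun y hy hadj h => by
    by_cases hyD : y ∈ D
    · exact hx.2 (hD.2 y hyD x hadj.symm h.symm)
    · have := hmax y (Finset.mem_sdiff.2 ⟨hy, hyD⟩); omega
  have hp : ∀ y ∈ D', G.Adj x y → y = p := fun y hy hadj => by
    rcases hG.dist_eq_dist_add_one_of_adj o hadj with h | h
    · exact parent_unique hG hadj hp1 h.symm hp2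
    · exact (nochild y hy hadj h).elim
  obtain ⟨c, hc, hc1, h1⟩ := SI_leaf hθ hx.1 hp (0 : V → ℝ)
  obtain ⟨c', hc', hc1', h2⟩ := ih _ (Finset.erase_ssubset hx.1)
    (fun y hy => Finset.mem_erase.2 ⟨fun h => hx.2 (h ▸ hy), hsub hy⟩)
  refine ⟨c * c', mul_pos hc hc', fun hg => ?_, fun g hg => ?_⟩
  · rw [hc1 rfl (hg.2 x hx.1 p hp1 hp2) hp1, one_mul]
    refine hc1' ⟨Finset.mem_erase.2 ⟨hxo.symm, hg.1⟩, fun y hy z hadj hd => ?_⟩
    rw [Finset.mem_erase] at hy ⊢
    refine ⟨?_, hg.2 y hy.2 z hadj hd⟩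
    rintro rfl
    exact nochild y hy.2 hadj.symm hd.symm
  · rw [h1 g (hg x hx.2), mul_assoc, ← h2 g hg]
    simp only [Pi.zero_apply, msg_zero_right, ite_self, add_zero]
    rfl

lemma SI_good (hG : G.IsTree) (hθ : θ ∈ Set.Ico (0 : ℝ) 1) {o : V} {D : Finset V}
    (hD : GoodAt G o D) : SI G θ D 0 (fun _ => 1) = 2 := by
  have h0 : GoodAt G o {o} := ⟨Finset.mem_singleton_self o, fun y hy x _ h => by
    rw [Finset.mem_singleton.1 hy, SimpleGraph.dist_self] at h; omega⟩
  obtain ⟨c, -, hc, h⟩ := SI_consistent hG hθ h0 D (by simpa using hD.1)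
  rw [h _ (fun _ _ _ => rfl), hc hD, one_mul]
  have he : edgesIn G ({o} : Finset V) = ∅ := by
    ext e
    induction e using Sym2.ind with
    | _ a b =>
      simp only [mk_mem_edgesIn, Finset.mem_singleton, Finset.notMem_empty, iff_false]
      rintro ⟨rfl, rfl, h⟩; exact h.ne rfl
  unfold SI
  rw [show ({o} : Finset V) = insert o ∅ from rfl,
    Finset.sum_powerset_insert (Finset.notMem_empty o)]
  simp [wI, he, tilt]
  norm_num

lemma mI_map (g : G ≃g G) (D : Finset V) {l l' : V → ℝ} (hl : ∀ v, l' (g v) = l v) (v : V) :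
    mI G θ (D.map g.toEquiv.toEmbedding) l' (g v) = mI G θ D l v := by
  have mem : ∀ (T : Finset V) a, g a ∈ T.map g.toEquiv.toEmbedding ↔ a ∈ T := fun T a =>
    Finset.mem_map' g.toEquiv.toEmbedding
  have key : ∀ (f f' : Finset V → ℝ), (∀ T, f' (T.map g.toEquiv.toEmbedding) = f T) →
      SI G θ (D.map g.toEquiv.toEmbedding) l' f' = SI G θ D l f := by
    intro f f' hf
    symm
    refine Finset.sum_equiv g.toEquiv.finsetCongr (fun T => by simp) fun T _ => ?_
    rw [Equiv.finsetCongr_apply, hf]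
    congr 2
    · refine Finset.prod_bij (fun e _ => e.map g) ?_ ?_ ?_ ?_
      · intro e he
        induction e using Sym2.ind with
        | _ a b => simpa only [Sym2.map_mk, mk_mem_edgesIn, mem, g.map_adj_iff] using he
      · exact fun a _ b _ h => Sym2.map.injective g.injective h
      · intro e he
        induction e using Sym2.ind with
        | _ a b =>
          obtain ⟨a, rfl⟩ := g.surjective a
          obtain ⟨b, rfl⟩ := g.surjective b
          exact ⟨s(a, b), by simpa only [mk_mem_edgesIn, mem, g.map_adj_iff] using he, rfl⟩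
      · intro e _
        induction e using Sym2.ind with
        | _ a b => simp only [Sym2.map_mk, Sym2.mul_mk, sp, mem]
    · unfold tilt
      rw [Finset.prod_map]
      exact Finset.prod_congr rfl fun v _ => by rw [← hl]; rfl
  unfold mI
  rw [key (fun T => ind T v) _ (fun T => by simp only [ind, mem]), key (fun _ => 1) _ (fun _ => rfl)]

lemma measurable_mI {X : Type*} [MeasurableSpace X] (D : Finset V) {l : X → V → ℝ}
    (hl : ∀ v, Measurable fun x => l x v) (v : V) : Measurable fun x => mI G θ D (l x) v := by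
  have : ∀ g, Measurable fun x => SI G θ D (l x) g := fun g =>
    Finset.measurable_sum _ fun T _ => (measurable_const.mul
      (Finset.measurable_prod _ fun w _ => (hl w).exp)).mul measurable_const
  exact (this _).div (this _)

end Vale.Agent.P161
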