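import Vale.Agent.P161.Decode

namespace Vale.Agent.P161

open MeasureTheory unitInterval Classical Filter Topology
open Vale.Agent.P143 (BM iidUniform psi psi_nonneg psi_le tendsto_of_psi ae_tendsto_zero
  abs_prod_sub_prod prod_mem one_sub_mem tendsto_half)

lemma diag {Ω ι : Type*} [MeasurableSpace Ω] (μ : Measure Ω) [IsProbabilityMeasure μ]
    [Countable ι] [Nonempty ι] {X : ι → ℕ → Ω → ℝ} (hm : ∀ i n, Measurable (X i n))
    (hX : ∀ i n ω, X i n ω ∈ Set.Icc (0 : ℝ) 1)
    (hc : ∀ i, Tendsto (fun q : ℕ × ℕ => ∫ ω, |X i q.1 ω - X i q.2 ω| ∂μ) atTop (𝓝 0)) :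
    ∃ φ : ℕ → ℕ, Tendsto φ atTop atTop ∧ ∀ i, ∀ᵐ ω ∂μ,
      Tendsto (fun j => X i (φ j) ω) atTop (𝓝 (limsup (fun j => X i (φ j) ω) atTop)) := by
  obtain ⟨f, hf⟩ := exists_surjective_nat ι
  have : ∀ i (j : ℕ), ∃ N : ℕ, ∀ a b, N ≤ a → N ≤ b →
      ∫ ω, |X i a ω - X i b ω| ∂μ ≤ (1 / 4) ^ j := by
    intro i j
    obtain ⟨q, hq⟩ := eventually_atTop.1 ((hc i).eventually
      (gt_mem_nhds (show (0 : ℝ) < (1 / 4) ^ j by positivity)))
    exact ⟨max q.1 q.2, fun a b ha hb =>
      (hq (a, b) ⟨(le_max_left _ _).trans ha, (le_max_right _ _).trans hb⟩).le⟩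
  choose N hN using this
  let φ : ℕ → ℕ := fun j => j + ((Finset.range (j + 1)) ×ˢ (Finset.range (j + 1))).sup
    fun q => N (f q.1) q.2
  have hφ : ∀ p q j, p ≤ j → q ≤ j → N (f p) q ≤ φ j := fun p q j hp hq =>
    le_add_left (Finset.le_sup (f := fun q : ℕ × ℕ => N (f q.1) q.2) (b := (p, q))
      (by simp; omega))
  refine ⟨φ, tendsto_atTop_mono (fun j => Nat.le_add_right _ _) tendsto_id, fun i => ?_⟩
  obtain ⟨p, rfl⟩ := hf i
  have bm : ∀ n, BM (X (f p) n) := fun n => BM.of_mem (hm _ _) (hX _ _)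
  have := ae_tendsto_zero (μ := μ)
    (ψ := fun j ω => 2 ^ (j + p) * |X (f p) (φ (j + p)) ω - X (f p) (φ (j + p + 1)) ω|)
    (fun j => (BM.const _).mul ((bm _).sub (bm _)).abs) (fun j ω => by positivity) (C := 1)
    (fun j => by
      rw [integral_const_mul]
      have h1 := hN (f p) (j + p) _ _ (hφ p (j + p) (j + p) (by omega) le_rfl)
        (hφ p (j + p) (j + p + 1) (by omega) (by omega))
      refine (mul_le_mul_of_nonneg_left h1 (by positivity)).trans ?_
      rw [← mul_pow, one_mul]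
      norm_num
      exact pow_le_pow_of_le_one (by norm_num) (by norm_num) (by omega))
  filter_upwards [this] with ω hω
  obtain ⟨M, hM⟩ := eventually_atTop.1 (hω.eventually (gt_mem_nhds zero_lt_one))
  have cs : CauchySeq fun j => X (f p) (φ (j + (M + p))) ω := by
    refine cauchySeq_of_le_geometric (1 / 2) 1 (by norm_num) fun j => ?_
    have h1 := hM (j + M) (by omega)
    rw [Real.dist_eq, show j + 1 + (M + p) = j + M + p + 1 by ring, ← add_assoc, one_mul]
    have h2 : (2 : ℝ) ^ j ≤ 2 ^ (j + M + p) := pow_le_pow_right₀ (by norm_num) (by omega)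
    rw [one_div, inv_pow, ← one_div, le_div_iff₀ (by positivity)]
    nlinarith [abs_nonneg (X (f p) (φ (j + M + p)) ω - X (f p) (φ (j + M + p + 1)) ω)]
  obtain ⟨l, hl⟩ := cauchySeq_tendsto_of_complete cs
  have hl' := (tendsto_add_atTop_iff_nat (f := fun j => X (f p) (φ j) ω) (M + p)).1 hl
  rwa [hl'.limsup_eq]

variable {V : Type*} {G : SimpleGraph V} {θ ε r C : ℝ}

noncomputable def cylF (A B : Finset V) (a : V → ℝ) : ℝ :=
  (∏ e ∈ A, a e) * ∏ e ∈ B, (1 - a e)

lemma cylF_mem (A B : Finset V) {a : V → ℝ} (ha : ∀ e, a e ∈ Set.Icc (0 : ℝ) 1) :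
    cylF A B a ∈ Set.Icc (0 : ℝ) 1 := by
  have h1 := prod_mem A ha
  have h2 := prod_mem B fun e => one_sub_mem (ha e)
  exact ⟨mul_nonneg h1.1 h2.1, mul_le_one₀ h1.2 h2.1 h2.2⟩

lemma cylF_sub (A B : Finset V) {a b : V → ℝ} (ha : ∀ e, a e ∈ Set.Icc (0 : ℝ) 1)
    (hb : ∀ e, b e ∈ Set.Icc (0 : ℝ) 1) :
    |cylF A B a - cylF A B b| ≤ 2 * ∑ e ∈ A ∪ B, |a e - b e| := by
  have h1 := abs_prod_sub_prod A ha hb
  have h2 := abs_prod_sub_prod B (fun e => one_sub_mem (ha e)) (fun e => one_sub_mem (hb e))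
  have h3 := prod_mem B fun e => one_sub_mem (ha e)
  have h4 := prod_mem A hb
  have e : ∀ e, |1 - a e - (1 - b e)| = |a e - b e| := fun e => by
    rw [abs_sub_comm]; congr 1; ring
  simp only [e] at h2
  have s1 : ∑ e ∈ A, |a e - b e| ≤ ∑ e ∈ A ∪ B, |a e - b e| :=
    Finset.sum_le_sum_of_subset_of_nonneg Finset.subset_union_left fun _ _ _ => abs_nonneg _
  have s2 : ∑ e ∈ B, |a e - b e| ≤ ∑ e ∈ A ∪ B, |a e - b e| :=
    Finset.sum_le_sum_of_subset_of_nonneg Finset.subset_union_right fun _ _ _ => abs_nonneg _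
  have : cylF A B a - cylF A B b = (∏ e ∈ A, a e - ∏ e ∈ A, b e) * ∏ e ∈ B, (1 - a e) +
      (∏ e ∈ A, b e) * (∏ e ∈ B, (1 - a e) - ∏ e ∈ B, (1 - b e)) := by unfold cylF; ring
  rw [this]
  refine (abs_add_le _ _).trans ?_
  rw [abs_mul, abs_mul, abs_of_nonneg h3.1, abs_of_nonneg h4.1]
  have t1 := mul_le_of_le_one_right (abs_nonneg (∏ e ∈ A, a e - ∏ e ∈ A, b e)) h3.2
  have t2 := mul_le_of_le_one_left
    (abs_nonneg (∏ e ∈ B, (1 - a e) - ∏ e ∈ B, (1 - b e))) h4.2
  linarith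

lemma cylF_ind (A B : Finset V) (P : V → Prop) [DecidablePred P] :
    cylF A B (fun e => if P e then 1 else 0) =
      if (∀ e ∈ A, P e) ∧ ∀ e ∈ B, ¬ P e then 1 else 0 := by
  unfold cylF
  split_ifs with h
  · rw [Finset.prod_eq_one fun e he => if_pos (h.1 e he),
      Finset.prod_eq_one fun e he => by simp only [if_neg (h.2 e he), sub_zero], mul_one]
  · rw [not_and_or] at h
    rcases h with h | h <;> push Not at h <;> obtain ⟨e, he, h⟩ := h
    · rw [Finset.prod_eq_zero he (if_neg h), zero_mul]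
    · rw [Finset.prod_eq_zero he (by simp only [if_pos h, sub_self]), mul_zero]

/-- abstract decoding theorem -/
theorem decode_law [Countable V] {Ω : Type*} [MeasurableSpace Ω] (μ : Measure Ω)
    [IsProbabilityMeasure μ] {Yn : ℕ → Ω → V × ℕ → ℝ} {Y : Ω → V × ℕ → ℝ}
    (mYn : ∀ n, Measurable (Yn n)) (mY : Measurable Y)
    (hlim : ∀ᵐ ω ∂μ, Tendsto (fun n => Yn n ω) atTop (𝓝 (Y ω)))
    {av : ℕ → (Finset V → ℝ) → ℝ} (av0 : ∀ n, av n (fun _ => 0) = 0) {B0 : ℝ}
    (fb : ∀ S : Finset (V × ℕ), ∀ᶠ n in atTop, ∀ g : (V × ℕ → ℝ) → ℝ, BM g →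
      (∀ y y', (∀ q ∈ S, soft ε y q = soft ε y' q) → g y = g y') →
      ∀ (c : Finset V → ℝ) (w : ℝ), 0 ≤ w →
      (∀ y T, |g y - c T| ≤ w * ∑ q ∈ S, |soft ε y q - ind T q.1|) →
      |∫ ω, g (Yn n ω) ∂μ - av n c| ≤ w * ∑ q ∈ S, B0 / 2 ^ q.2) (A B : Finset V) :
    Tendsto (fun n => av n fun T => cylF A B (ind T)) atTop
      (𝓝 (μ.real {ω | (∀ v ∈ A, ∀ᶠ j in atTop, 1 / 2 < soft ε (Y ω) (v, j)) ∧
        ∀ v ∈ B, ¬ ∀ᶠ j in atTop, 1 / 2 < soft ε (Y ω) (v, j)})) := by
  have dct : ∀ g : (V × ℕ → ℝ) → ℝ, BM g → Continuous g →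
      Tendsto (fun n => ∫ b, g (Yn n b) ∂μ) atTop (𝓝 (∫ b, g (Y b) ∂μ)) := by
    intro g hg hc
    obtain ⟨C, hC⟩ := hg.bdd
    exact tendsto_integral_of_dominated_convergence (fun _ => C)
      (fun n => (hg.meas.comp (mYn _)).aestronglyMeasurable) (integrable_const _)
      (fun n => Eventually.of_forall fun b => hC _)
      (hlim.mono fun ω hω => (hc.tendsto _).comp hω)
  have bms : ∀ q : V × ℕ, BM fun y => soft ε y q := bm_soft ε
  have ind01 : ∀ (T : Finset V) e, ind T e = 0 ∨ ind T e = 1 := fun T e => by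
    unfold ind; split_ifs <;> simp
  have ae1 : ∀ e, ∀ᵐ b ∂μ, Tendsto (fun j => soft ε (Y b) (e, j)) atTop
      (𝓝 (if ∀ᶠ j in atTop, 1 / 2 < soft ε (Y b) (e, j) then 1 else 0)) := by
    intro e
    have bmψ : ∀ j, BM fun y => psi (soft ε y (e, j)) (soft ε y (e, j + 1)) := fun j =>
      ((((BM.const 2).mul (bms _)).mul ((BM.const 1).sub (bms _))).add
        ((bms _).sub (bms _)).abs).add (((BM.const 2).mul (bms _)).mul ((BM.const 1).sub (bms _)))
    have cψ : ∀ j, Continuous fun y => psi (soft ε y (e, j)) (soft ε y (e, j + 1)) := fun j => by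
      have h1 := continuous_soft ε (e, j)
      have h2 := continuous_soft ε (e, j + 1)
      unfold psi; fun_prop
    have := ae_tendsto_zero (μ := μ) (fun j => (bmψ j).comp mY)
      (fun j b => psi_nonneg (soft_mem _ _ _) (soft_mem _ _ _)) (C := 9 / 2 * B0) (fun j => by
        refine le_of_tendsto (dct _ (bmψ j) (cψ j)) ?_
        filter_upwards [fb {(e, j), (e, j + 1)}] with n hn
        have hne : (e, j) ≠ (e, j + 1) := by simp
        have := hn _ (bmψ j) (fun y y' h => by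
            rw [h (e, j) (by simp), h (e, j + 1) (by simp)]) (fun _ => 0) 3
          (by norm_num) (fun y T => by
            rw [Finset.sum_pair hne, sub_zero,
              abs_of_nonneg (psi_nonneg (soft_mem _ _ _) (soft_mem _ _ _))]
            exact psi_le (soft_mem _ _ _) (soft_mem _ _ _) (ind01 T e))
        rw [Finset.sum_pair hne, av0, sub_zero] at this
        refine ((le_abs_self _).trans this).trans (le_of_eq ?_)
        simp only [one_div, inv_pow, pow_succ]
        field_simp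
        ring)
    filter_upwards [this] with b hb
    exact tendsto_of_psi (fun j => soft_mem _ _ _) hb
  have bmc : ∀ j, BM fun y => cylF A B fun e => soft ε y (e, j) := fun j =>
    (BM.prod _ fun e _ => bms _).mul (BM.prod _ fun e _ => (BM.const 1).sub (bms _))
  have cc : ∀ j, Continuous fun y => cylF A B fun e => soft ε y (e, j) := fun j =>
    (continuous_finsetProd _ fun e _ => continuous_soft ε _).mul
      (continuous_finsetProd _ fun e _ => continuous_const.sub (continuous_soft ε _))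
  have mP : ∀ v, Measurable fun ω => ∀ᶠ j in atTop, 1 / 2 < soft ε (Y ω) (v, j) := fun v => by
    simp only [eventually_atTop]
    exact Measurable.exists fun M => Measurable.forall fun j => Measurable.imp measurable_const
      (measurableSet_setOfPred.1 (measurableSet_lt measurable_const ((bms _).meas.comp mY)))
  have mS : MeasurableSet {ω | (∀ v ∈ A, ∀ᶠ j in atTop, 1 / 2 < soft ε (Y ω) (v, j)) ∧
      ∀ v ∈ B, ¬ ∀ᶠ j in atTop, 1 / 2 < soft ε (Y ω) (v, j)} :=
    measurableSet_setOfPred.2 ((Measurable.forall fun v => measurable_const.imp (mP v)).and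
      (Measurable.forall fun v => measurable_const.imp (mP v).not))
  have lim1 : Tendsto (fun j => ∫ b, cylF A B (fun e => soft ε (Y b) (e, j)) ∂μ) atTop
      (𝓝 (μ.real {ω | (∀ v ∈ A, ∀ᶠ j in atTop, 1 / 2 < soft ε (Y ω) (v, j)) ∧
        ∀ v ∈ B, ¬ ∀ᶠ j in atTop, 1 / 2 < soft ε (Y ω) (v, j)})) := by
    rw [← integral_indicator_one mS]
    refine tendsto_integral_of_dominated_convergence (fun _ => 1)
      (fun j => ((bmc j).meas.comp mY).aestronglyMeasurable) (integrable_const _)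
      (fun j => Eventually.of_forall fun b => ?_) ?_
    · have := cylF_mem A B fun e => soft_mem ε (Y b) (e, j)
      rw [Real.norm_eq_abs, abs_of_nonneg this.1]; exact this.2
    · filter_upwards [ae_all_iff.2 ae1] with b hb
      have : Set.indicator {ω | (∀ v ∈ A, ∀ᶠ j in atTop, 1 / 2 < soft ε (Y ω) (v, j)) ∧
          ∀ v ∈ B, ¬ ∀ᶠ j in atTop, 1 / 2 < soft ε (Y ω) (v, j)} (1 : Ω → ℝ) b =
          cylF A B fun e => if ∀ᶠ j in atTop, 1 / 2 < soft ε (Y b) (e, j) then 1 else 0 := by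
        rw [cylF_ind]
        split_ifs with h
        · exact Set.indicator_of_mem (by exact h) _
        · exact Set.indicator_of_notMem (by exact h) _
      rw [this]
      exact (tendsto_finsetProd _ fun e _ => hb e).mul
        (tendsto_finsetProd _ fun e _ => tendsto_const_nhds.sub (hb e))
  rw [Metric.tendsto_nhds]
  intro δ hδ
  obtain ⟨j, hj1, hj2⟩ := ((Metric.tendsto_nhds.1 lim1 (δ / 3) (by positivity)).and
    ((tendsto_half (2 * ((A ∪ B).card * B0))).eventually
      (gt_mem_nhds (show (0 : ℝ) < δ / 3 by positivity)))).exists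
  have hinj : Function.Injective fun e : V => (e, j) := fun a b h => (Prod.ext_iff.1 h).1
  filter_upwards [Metric.tendsto_nhds.1 (dct _ (bmc j) (cc j)) (δ / 3) (by positivity),
    fb ((A ∪ B).image fun e => (e, j))] with n h1 h2
  have := h2 _ (bmc j) (fun y y' h => by
      unfold cylF
      congr 1 <;> refine Finset.prod_congr rfl fun e he => ?_
      · exact h _ (Finset.mem_image_of_mem _ (Finset.mem_union_left _ he))
      · exact congrArg (1 - ·) (h _ (Finset.mem_image_of_mem _ (Finset.mem_union_right _ he))))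
    (fun T => cylF A B (ind T)) 2 (by norm_num)
    (fun y T => by
      rw [Finset.sum_image hinj.injOn]
      exact cylF_sub A B (fun e => soft_mem ε y (e, j)) (fun e => ind_mem T e))
  rw [Finset.sum_image hinj.injOn] at this
  simp only [Finset.sum_const, nsmul_eq_mul] at this
  have e : (2 : ℝ) * ((A ∪ B).card * (B0 / 2 ^ j)) = 2 * ((A ∪ B).card * B0) * (1 / 2) ^ j := by
    simp only [one_div, inv_pow]; ring
  rw [Real.dist_eq] at hj1 h1 ⊢
  rw [abs_le] at this
  rw [abs_lt] at hj1 h1 ⊢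
  constructor <;> linarith [this.1, this.2]

end Vale.Agent.P161
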