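import Vale.Agent.P161.Ising
import Vale.Agent.P161.Channel
import Vale.Agent.P143.Picard

namespace Vale.Agent.P161

open Filter Topology unitInterval Classical

variable {V : Type*}

noncomputable def state (ε : ℝ) (lt : V → V → Prop) (y : V × ℕ → ℝ) (i : V × ℕ) (f : V) : ℝ :=
  ∑ j ∈ Finset.range i.2, lam ε (y (f, j)) + if lt f i.1 then lam ε (y (f, i.2)) else 0

noncomputable def step (ε : ℝ) (m : (V → ℝ) → V → ℝ) (lt : V → V → Prop) (u : V × ℕ → I)
    (y : V × ℕ → ℝ) (i : V × ℕ) : ℝ :=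
  Qf ε (m (state ε lt y i) i.1) (u i)

noncomputable def iter (ε : ℝ) (m : (V → ℝ) → V → ℝ) (lt : V → V → Prop) (u : V × ℕ → I) :
    ℕ → V × ℕ → ℝ
  | 0 => fun _ => 0
  | n + 1 => step ε m lt u (iter ε m lt u n)

noncomputable def Ysol (ε : ℝ) (m : (V → ℝ) → V → ℝ) (lt : V → V → Prop) (u : V × ℕ → I)
    (i : V × ℕ) : ℝ :=
  limUnder atTop fun n => iter ε m lt u (n + 1) i

structure Par (G : SimpleGraph V) (θ ε r C : ℝ) : Prop where
  tree : G.IsTree
  hθ : θ ∈ Set.Ico (0 : ℝ) 1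
  hε : ε ∈ Set.Ioc (0 : ℝ) (1 / 2)
  hr : 0 < r
  ker : ∀ (u w : V) (D : Finset V),
    ∑ y ∈ D, θ ^ G.dist u y * r ^ G.dist w y ≤ C * r ^ G.dist w u
  small : 32 * ε ^ 2 * C ≤ 1
  tail : ∀ (v : V) (η : ℝ), 0 < η → ∃ R : ℕ, ∀ D : Finset V, (∀ w ∈ D, R < G.dist w v) →
    ∑ w ∈ D, (r ^ G.dist w v) ^ 2 ≤ η

def IsSup (G : SimpleGraph V) (θ C : ℝ) (φ : V → ℝ) : Prop :=
  (∀ v, 0 ≤ φ v) ∧ ∀ (u : V) (D : Finset V), ∑ y ∈ D, θ ^ G.dist u y * φ y ≤ C * φ u

variable {G : SimpleGraph V} {θ ε r C : ℝ} {D : Finset V} {lt : V → V → Prop}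
  {u u' : V × ℕ → I} {y y' : V × ℕ → ℝ} {φ : V → ℝ}

lemma Par.sup (h : Par G θ ε r C) {ι : Type*} (S : Finset ι) (w : ι → V) {a : ι → ℝ}
    (ha : ∀ i, 0 ≤ a i) : IsSup G θ C fun x => ∑ i ∈ S, r ^ G.dist (w i) x * a i := by
  have := h.hr
  refine ⟨fun v => Finset.sum_nonneg fun i _ => mul_nonneg (by positivity) (ha i), fun u D => ?_⟩
  simp only [Finset.mul_sum]
  rw [Finset.sum_comm]
  refine Finset.sum_le_sum fun i _ => ?_
  simp only [← mul_assoc]
  rw [← Finset.sum_mul]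
  exact mul_le_mul_of_nonneg_right (h.ker u (w i) D) (ha i)

lemma IsSup.mul (h : IsSup G θ C φ) {δ : ℝ} (hδ : 0 ≤ δ) : IsSup G θ C fun x => φ x * δ := by
  refine ⟨fun v => mul_nonneg (h.1 v) hδ, fun u D => ?_⟩
  simp only [← mul_assoc]
  rw [← Finset.sum_mul]
  exact mul_le_mul_of_nonneg_right (h.2 u D) hδ

lemma Par.exists_sup (h : Par G θ ε r C) (D : Finset V) :
    ∃ φ, IsSup G θ C φ ∧ ∀ v ∈ D, 1 ≤ φ v := by
  refine ⟨_, h.sup D id (a := fun _ => 1) fun _ => zero_le_one, fun v hv => ?_⟩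
  have := h.hr
  simpa using Finset.single_le_sum (f := fun i => r ^ G.dist (id i) v * 1)
    (fun i _ => by positivity) hv

lemma Par.step_mem (h : Par G θ ε r C) (y : V × ℕ → ℝ) (i : V × ℕ) :
    step ε (mI G θ D) lt u y i ∈ Set.Icc (0 : ℝ) 1 :=
  (Qf_spec h.hε (mI_mem h.hθ _ _ _) (u i).2).1

lemma Par.iter_mem (h : Par G θ ε r C) (n : ℕ) (i : V × ℕ) :
    iter ε (mI G θ D) lt u n i ∈ Set.Icc (0 : ℝ) 1 := by
  cases n with
  | zero => exact ⟨le_rfl, zero_le_one⟩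
  | succ n => exact h.step_mem _ _

lemma state_close (hε : ε ∈ Set.Ioc (0 : ℝ) (1 / 2)) (hy : ∀ i, y i ∈ Set.Icc (0 : ℝ) 1)
    (hy' : ∀ i, y' i ∈ Set.Icc (0 : ℝ) 1) {δ : ℝ} (hδ : 0 ≤ δ) {i : V × ℕ} {f : V}
    (h : ∀ j, (j < i.2 ∨ (j = i.2 ∧ lt f i.1)) → |y (f, j) - y' (f, j)| ≤ 2 ^ j * δ) :
    |state ε lt y i f - state ε lt y' i f| ≤ 16 * ε * (2 ^ i.2 * δ) := by
  have h8 : 0 ≤ 8 * ε := by linarith [hε.1]
  have h1 : |∑ j ∈ Finset.range i.2, lam ε (y (f, j)) -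
      ∑ j ∈ Finset.range i.2, lam ε (y' (f, j))| ≤ 8 * ε * (2 ^ i.2 * δ) := by
    rw [← Finset.sum_sub_distrib]
    refine (Finset.abs_sum_le_sum_abs _ _).trans ?_
    calc ∑ j ∈ Finset.range i.2, |lam ε (y (f, j)) - lam ε (y' (f, j))|
        ≤ ∑ j ∈ Finset.range i.2, 8 * ε * (2 ^ j * δ) := Finset.sum_le_sum fun j hj =>
          (lam_lip hε (hy _) (hy' _)).trans
            (mul_le_mul_of_nonneg_left (h j (Or.inl (Finset.mem_range.1 hj))) h8)
      _ = 8 * ε * ((∑ j ∈ Finset.range i.2, (2 : ℝ) ^ j) * δ) := by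
          rw [Finset.sum_mul, Finset.mul_sum]
      _ ≤ _ := mul_le_mul_of_nonneg_left (mul_le_mul_of_nonneg_right (P143.geom_two i.2) hδ) h8
  have h2 : |(if lt f i.1 then lam ε (y (f, i.2)) else 0) -
      (if lt f i.1 then lam ε (y' (f, i.2)) else 0)| ≤ 8 * ε * (2 ^ i.2 * δ) := by
    split_ifs with hl
    · exact (lam_lip hε (hy _) (hy' _)).trans
        (mul_le_mul_of_nonneg_left (h i.2 (Or.inr ⟨rfl, hl⟩)) h8)
    · simp only [sub_self, abs_zero]; positivity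
  unfold state
  rw [add_sub_add_comm]
  exact (abs_add_le _ _).trans (by linarith)

lemma Par.step_close (h : Par G θ ε r C) (hy : ∀ i, y i ∈ Set.Icc (0 : ℝ) 1)
    (hy' : ∀ i, y' i ∈ Set.Icc (0 : ℝ) 1) (hφ : IsSup G θ C φ) (i : V × ℕ)
    (hc : ∀ w ∈ D, ∀ j, (j < i.2 ∨ (j = i.2 ∧ lt w i.1)) →
      |y (w, j) - y' (w, j)| ≤ 2 ^ j * φ w) :
    |step ε (mI G θ D) lt u y i - step ε (mI G θ D) lt u' y' i| ≤
      2 * |(u i : ℝ) - u' i| + 2 ^ i.2 * (φ i.1 * (1 / 2)) := by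
  unfold step
  refine (Qf_lip h.hε (mI_mem h.hθ _ _ _) (mI_mem h.hθ _ _ _) (u i).2 (u' i).2).trans
    (add_le_add_right ?_ _)
  have e0 := h.hε.1
  have t0 := h.hθ.1
  have h1 := (mI_lip h.tree h.hθ i.1 D (state ε lt y i) (state ε lt y' i)).trans
    (Finset.sum_le_sum fun w hw => mul_le_mul_of_nonneg_left
      (state_close h.hε hy hy' (hφ.1 w) (hc w hw)) (by positivity))
  have h2 : ∑ w ∈ D, θ ^ G.dist i.1 w * (16 * ε * (2 ^ i.2 * φ w)) =
      16 * ε * 2 ^ i.2 * ∑ w ∈ D, θ ^ G.dist i.1 w * φ w := by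
    rw [Finset.mul_sum]; exact Finset.sum_congr rfl fun _ _ => by ring
  rw [h2] at h1
  have h3 := mul_le_mul_of_nonneg_left (hφ.2 i.1 D) (show 0 ≤ 16 * ε * 2 ^ i.2 by positivity)
  have h4 := mul_le_mul_of_nonneg_left (h1.trans h3) e0.le
  have h5 := mul_le_mul_of_nonneg_right h.small
    (show 0 ≤ 2 ^ i.2 * φ i.1 from mul_nonneg (by positivity) (hφ.1 _))
  nlinarith

lemma abs_le_one {a b : ℝ} (ha : a ∈ Set.Icc (0 : ℝ) 1) (hb : b ∈ Set.Icc (0 : ℝ) 1) :
    |a - b| ≤ 1 := by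
  rw [abs_le]; constructor <;> linarith [ha.1, ha.2, hb.1, hb.2]

/-- two orbits of the step map approach each other geometrically -/
lemma Par.orbit_close (h : Par G θ ε r C) (hφ : IsSup G θ C φ) (h1 : ∀ v ∈ D, 1 ≤ φ v)
    {a b : ℕ → V × ℕ → ℝ} (ha : ∀ n i, a n i ∈ Set.Icc (0 : ℝ) 1)
    (hb : ∀ n i, b n i ∈ Set.Icc (0 : ℝ) 1) (sa : ∀ n, a (n + 1) = step ε (mI G θ D) lt u (a n))
    (sb : ∀ n, b (n + 1) = step ε (mI G θ D) lt u (b n)) (n : ℕ) (i : V × ℕ) :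
    |a (n + 1) i - b (n + 1) i| ≤ 2 ^ i.2 * φ i.1 * (1 / 2) ^ n := by
  have key : ∀ n, (∀ i : V × ℕ, i.1 ∈ D → |a n i - b n i| ≤ 2 ^ i.2 * (φ i.1 * (1 / 2) ^ n)) →
      ∀ i : V × ℕ, |a (n + 1) i - b (n + 1) i| ≤ 2 ^ i.2 * (φ i.1 * (1 / 2) ^ (n + 1)) := by
    intro n ih i
    have := h.step_close (D := D) (lt := lt) (u := u) (u' := u) (ha n) (hb n)
      (hφ.mul (δ := (1 / 2) ^ n) (by positivity)) i fun w hw j _ => ih (w, j) hw
    rw [sa, sb]
    refine this.trans (le_of_eq ?_)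
    simp only [sub_self, abs_zero]; ring
  have all : ∀ n, ∀ i : V × ℕ, i.1 ∈ D → |a n i - b n i| ≤ 2 ^ i.2 * (φ i.1 * (1 / 2) ^ n) := by
    intro n
    induction n with
    | zero =>
      intro i hi
      have : (1 : ℝ) ≤ 2 ^ i.2 := one_le_pow₀ (by norm_num)
      have := h1 _ hi
      have := abs_le_one (ha 0 i) (hb 0 i)
      simp only [pow_zero, mul_one]
      nlinarith
    | succ n ih => exact fun i _ => key n ih i
  refine (key n (all n) i).trans ?_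
  have : 0 ≤ 2 ^ i.2 * φ i.1 * (1 / 2) ^ n := by have := hφ.1 i.1; positivity
  rw [pow_succ]
  nlinarith

lemma Par.iter_tendsto (h : Par G θ ε r C) (i : V × ℕ) :
    Tendsto (fun n => iter ε (mI G θ D) lt u (n + 1) i) atTop
      (𝓝 (Ysol ε (mI G θ D) lt u i)) := by
  obtain ⟨φ, hφ, h1⟩ := h.exists_sup D
  exact (cauchySeq_of_le_geometric (1 / 2) (2 ^ i.2 * φ i.1) (by norm_num)
    (fun n => h.orbit_close hφ h1 (a := iter ε (mI G θ D) lt u)
      (b := fun n => iter ε (mI G θ D) lt u (n + 1)) h.iter_mem (fun n => h.iter_mem (n + 1))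
      (fun _ => rfl) (fun _ => rfl) n i)).tendsto_limUnder

lemma Par.Ysol_mem (h : Par G θ ε r C) (i : V × ℕ) :
    Ysol ε (mI G θ D) lt u i ∈ Set.Icc (0 : ℝ) 1 :=
  isClosed_Icc.mem_of_tendsto (h.iter_tendsto i) (Eventually.of_forall fun _ => h.iter_mem _ i)

lemma Par.Ysol_fixed (h : Par G θ ε r C) :
    Ysol ε (mI G θ D) lt u = step ε (mI G θ D) lt u (Ysol ε (mI G θ D) lt u) := by
  obtain ⟨φ, hφ, h1⟩ := h.exists_sup D
  have close : ∀ n (i : V × ℕ), |iter ε (mI G θ D) lt u (n + 1) i - Ysol ε (mI G θ D) lt u i| ≤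
      2 ^ i.2 * (φ i.1 * (2 * (1 / 2) ^ n)) := fun n i => by
    have := dist_le_of_le_geometric_of_tendsto (1 / 2) (2 ^ i.2 * φ i.1) (by norm_num)
      (fun n => h.orbit_close hφ h1 (a := iter ε (mI G θ D) lt u)
        (b := fun n => iter ε (mI G θ D) lt u (n + 1)) h.iter_mem (fun n => h.iter_mem (n + 1))
        (fun _ => rfl) (fun _ => rfl) n i) (h.iter_tendsto i) n
    rw [Real.dist_eq] at this
    exact this.trans (le_of_eq (by ring))
  funext i
  have t1 : Tendsto (fun n => iter ε (mI G θ D) lt u (n + 1 + 1) i) atTop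
      (𝓝 (Ysol ε (mI G θ D) lt u i)) := (h.iter_tendsto i).comp (tendsto_add_atTop_nat 1)
  refine tendsto_nhds_unique t1 (P143.tendsto_of_abs_le (fun n => ?_)
    (P143.tendsto_half (2 ^ i.2 * φ i.1)))
  have := h.step_close (D := D) (lt := lt) (u := u) (u' := u) (h.iter_mem (n + 1)) h.Ysol_mem
    (hφ.mul (δ := 2 * (1 / 2) ^ n) (by positivity)) i fun w _ j _ => close n (w, j)
  refine this.trans (le_of_eq ?_)
  simp only [sub_self, abs_zero]; ring

lemma Par.fixed_unique (h : Par G θ ε r C) (hy : ∀ i, y i ∈ Set.Icc (0 : ℝ) 1)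
    (hf : y = step ε (mI G θ D) lt u y) : Ysol ε (mI G θ D) lt u = y := by
  obtain ⟨φ, hφ, h1⟩ := h.exists_sup D
  funext i
  refine tendsto_nhds_unique (h.iter_tendsto i) (P143.tendsto_of_abs_le (fun n => ?_)
    (P143.tendsto_half (2 ^ i.2 * φ i.1)))
  exact h.orbit_close hφ h1 (a := iter ε (mI G θ D) lt u) (b := fun _ => y) h.iter_mem
    (fun _ => hy) (fun _ => rfl) (fun _ => hf) n i

def Closed (D : Finset V) (lt : V → V → Prop) (S : Set (V × ℕ)) : Prop :=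
  ∀ i ∈ S, ∀ f ∈ D, ∀ j, (j < i.2 ∨ (j = i.2 ∧ lt f i.1)) → (f, j) ∈ S

lemma Par.Ysol_close (h : Par G θ ε r C) (hφ : IsSup G θ C φ) {S : Set (V × ℕ)}
    (hS : Closed D lt S) (hu : ∀ i ∈ S, |(u i : ℝ) - u' i| ≤ φ i.1 / 4) :
    ∀ i ∈ S, |Ysol ε (mI G θ D) lt u i - Ysol ε (mI G θ D) lt u' i| ≤ 2 ^ i.2 * φ i.1 := by
  have : ∀ n, ∀ i ∈ S,
      |iter ε (mI G θ D) lt u n i - iter ε (mI G θ D) lt u' n i| ≤ 2 ^ i.2 * φ i.1 := by
    intro n
    induction n with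
    | zero => intro i _; have := hφ.1 i.1; simp only [iter, sub_self, abs_zero]; positivity
    | succ n ih =>
      intro i hi
      have := h.step_close (D := D) (lt := lt) (u := u) (u' := u') (h.iter_mem n) (h.iter_mem n)
        hφ i fun w hw j hj => ih (w, j) (hS i hi w hw j hj)
      refine this.trans ?_
      have h1 : (1 : ℝ) ≤ 2 ^ i.2 := one_le_pow₀ (by norm_num)
      nlinarith [hu i hi, hφ.1 i.1]
  intro i hi
  exact le_of_tendsto' ((h.iter_tendsto i).sub (h.iter_tendsto i)).abs fun n => this _ i hi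

lemma Par.Ysol_congr (h : Par G θ ε r C) {S : Set (V × ℕ)} (hS : Closed D lt S)
    (hu : ∀ i ∈ S, u i = u' i) :
    ∀ i ∈ S, Ysol ε (mI G θ D) lt u i = Ysol ε (mI G θ D) lt u' i := by
  intro i hi
  have := h.Ysol_close (u := u) (u' := u') (φ := fun _ => 0) ⟨fun _ => le_rfl, fun _ _ => by simp⟩ hS
    (fun i hi => by simp [hu i hi]) i hi
  rwa [mul_zero, abs_nonpos_iff, sub_eq_zero] at this

lemma Par.Ysol_lip (h : Par G θ ε r C) {i : V × ℕ} (hi : i.1 ∈ D) (u u' : V × ℕ → I) :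
    |Ysol ε (mI G θ D) lt u i - Ysol ε (mI G θ D) lt u' i| ≤
      ∑ p ∈ D ×ˢ Finset.range (i.2 + 1),
        (2 ^ i.2 * 4 * r ^ G.dist p.1 i.1) * |(u p : ℝ) - u' p| := by
  have hr := h.hr
  have := h.Ysol_close (D := D) (lt := lt) (u := u) (u' := u')
    (h.sup (D ×ˢ Finset.range (i.2 + 1)) Prod.fst
    (a := fun p => 4 * |(u p : ℝ) - u' p|) fun _ => by positivity)
    (S := (D ×ˢ Finset.range (i.2 + 1) : Finset _)) (fun p hp f hf j hj => by
      rw [Finset.mem_coe, Finset.mem_product, Finset.mem_range] at hp ⊢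
      exact ⟨hf, by rcases hj with h | h <;> omega⟩) (fun p hp => by
      have := Finset.single_le_sum (f := fun q : V × ℕ => r ^ G.dist q.1 p.1 *
        (4 * |(u q : ℝ) - u' q|)) (fun _ _ => by positivity) hp
      simp only [SimpleGraph.dist_self, pow_zero, one_mul] at this
      linarith) i (by simp [hi])
  refine this.trans (le_of_eq ?_)
  rw [Finset.mul_sum]
  exact Finset.sum_congr rfl fun _ _ => by ring

section measurability
variable {X : Type*} [MeasurableSpace X]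

lemma measurable_state {lt : X → V → V → Prop}
    (hlt : ∀ f g, MeasurableSet {x | lt x f g}) {y : X → V × ℕ → ℝ}
    (hy : ∀ i, Measurable fun x => y x i) (i : V × ℕ) (f : V) :
    Measurable fun x => state ε (lt x) (y x) i f := by
  unfold state
  refine Measurable.add (Finset.measurable_sum _ fun j _ => (measurable_lam ε).comp (hy _)) ?_
  exact Measurable.ite (hlt _ _) ((measurable_lam ε).comp (hy _)) measurable_const

theorem Par.measurable_Ysol (h : Par G θ ε r C)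
    {lt : X → V → V → Prop} (hlt : ∀ f g, MeasurableSet {x | lt x f g})
    {u : X → V × ℕ → I} (hu : ∀ i, Measurable fun x => u x i) (i : V × ℕ) :
    Measurable fun x => Ysol ε (mI G θ D) (lt x) (u x) i := by
  have hN : ∀ N i, Measurable fun x => iter ε (mI G θ D) (lt x) (u x) N i := by
    intro N
    induction N with
    | zero => intro i; exact measurable_const
    | succ N ih =>
      intro i
      exact measurable_Qf (measurable_mI D (measurable_state hlt ih i) i.1)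
        (measurable_subtype_coe.comp (hu i))
  exact measurable_of_tendsto_metrizable (fun N => hN (N + 1) i)
    (tendsto_pi_nhds.2 fun x => h.iter_tendsto i)

end measurability

theorem Ysol_map (g : G ≃g G) {lt' : V → V → Prop} (hlt : ∀ a b, lt' (g a) (g b) ↔ lt a b)
    (hu : ∀ f k, u' (g f, k) = u (f, k)) (f : V) (k : ℕ) :
    Ysol ε (mI G θ (D.map g.toEquiv.toEmbedding)) lt' u' (g f, k) =
      Ysol ε (mI G θ D) lt u (f, k) := by
  have hN : ∀ N f k, iter ε (mI G θ (D.map g.toEquiv.toEmbedding)) lt' u' N (g f, k) =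
      iter ε (mI G θ D) lt u N (f, k) := by
    intro N
    induction N with
    | zero => intro f k; rfl
    | succ N ih =>
      intro f k
      simp only [iter, step, hu]
      rw [mI_map g D]
      intro g
      simp only [state, ih, hlt]
  simp only [Ysol, hN]

end Vale.Agent.P161
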