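import Mathlib

namespace Vale.Agent.P161

open SimpleGraph Classical

variable {V : Type*} {G : SimpleGraph V}

lemma parent_unique (hG : G.IsTree) {u x y z : V} (hy : G.Adj x y) (hz : G.Adj x z)
    (h1 : G.dist u y + 1 = G.dist u x) (h2 : G.dist u z + 1 = G.dist u x) : y = z := by
  obtain ⟨p, hp⟩ := hG.connected.exists_walk_length_eq_dist u y
  obtain ⟨q, hq⟩ := hG.connected.exists_walk_length_eq_dist u z
  have a := (p.concat hy.symm).isPath_of_length_eq_dist (by rw [Walk.length_concat, hp, h1])
  have b := (q.concat hz.symm).isPath_of_length_eq_dist (by rw [Walk.length_concat, hq, h2])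
  have := Subtype.mk.inj ((hG.isAcyclic.subsingleton_path u x).elim ⟨_, a⟩ ⟨_, b⟩)
  exact (Walk.concat_inj this).1

lemma exists_parent (hG : G.Connected) {u x : V} (h : x ≠ u) :
    ∃ p, G.Adj x p ∧ G.dist u p + 1 = G.dist u x := by
  obtain ⟨q, hq⟩ := hG.exists_walk_length_eq_dist x u
  cases q with
  | nil => exact (h rfl).elim
  | @cons _ p _ hadj q =>
    refine ⟨p, hadj, ?_⟩
    rw [Walk.length_cons] at hq
    have h1 := dist_le q
    have h2 := hG.dist_triangle (u := x) (v := p) (w := u)
    rw [dist_eq_one_iff_adj.2 hadj] at h2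
    rw [dist_comm, dist_comm (u := u)]
    omega

def GoodAt (G : SimpleGraph V) (o : V) (D : Finset V) : Prop :=
  o ∈ D ∧ ∀ y ∈ D, ∀ x, G.Adj y x → G.dist o x + 1 = G.dist o y → x ∈ D

lemma good_of_connected (hG : G.IsTree) {D : Finset V} (hD : (G.induce (D : Set V)).Connected)
    {o : V} (ho : o ∈ D) : GoodAt G o D := by
  refine ⟨ho, fun y hy x hadj hd => ?_⟩
  obtain ⟨p, hp, -⟩ := hD.exists_path_of_dist ⟨o, ho⟩ ⟨y, hy⟩
  obtain ⟨q, hq⟩ := hG.connected.exists_walk_length_eq_dist o x
  have a := (q.concat hadj.symm).isPath_of_length_eq_dist (by rw [Walk.length_concat, hq, hd])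
  have b : (p.map (Embedding.induce (D : Set V)).toHom).IsPath :=
    Walk.IsPath.map Subtype.val_injective hp
  have e := Subtype.mk.inj ((hG.isAcyclic.subsingleton_path o y).elim ⟨_, a⟩ ⟨_, b⟩)
  have hx : x ∈ (q.concat hadj.symm).support := q.support_subset_support_concat _ q.end_mem_support
  rw [e] at hx
  have h2 := Walk.support_map (Embedding.induce (D : Set V)).toHom p
  obtain ⟨z, -, rfl⟩ := List.mem_map.1 (h2 ▸ hx :)
  exact z.2

lemma finite_ball (hG : G.Connected) [G.LocallyFinite] (c : V) (n : ℕ) :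
    {v | G.dist c v ≤ n}.Finite := by
  induction n with
  | zero =>
    refine (Set.finite_singleton c).subset fun v hv => ?_
    exact (hG.dist_eq_zero_iff.1 (Nat.le_zero.1 hv)).symm
  | succ n ih =>
    refine (ih.union (ih.biUnion fun v _ => (G.neighborSet v).toFinite)).subset fun v hv => ?_
    by_cases h : v = c
    · left; simp [h]
    · obtain ⟨p, hp, hd⟩ := exists_parent hG h
      have : G.dist c v ≤ n + 1 := hv
      exact Or.inr (Set.mem_biUnion (show G.dist c p ≤ n by omega) hp.symm)

noncomputable def ballF (hG : G.Connected) [G.LocallyFinite] (c : V) (n : ℕ) : Finset V :=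
  (finite_ball hG c n).toFinset

lemma mem_ballF (hG : G.Connected) [G.LocallyFinite] {c v : V} {n : ℕ} :
    v ∈ ballF hG c n ↔ G.dist c v ≤ n := by simp [ballF]

lemma good_ballF (hG : G.Connected) [G.LocallyFinite] (c : V) (n : ℕ) :
    GoodAt G c (ballF hG c n) :=
  ⟨by simp [mem_ballF], fun y hy x _ h => by rw [mem_ballF] at hy ⊢; omega⟩

lemma ballF_mono (hG : G.Connected) [G.LocallyFinite] (c : V) {n m : ℕ} (h : n ≤ m) :
    ballF hG c n ⊆ ballF hG c m := fun v hv => by rw [mem_ballF] at hv ⊢; omega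

lemma subset_ballF (hG : G.Connected) [G.LocallyFinite] (c : V) (D : Finset V) :
    ∃ n, ∀ m, n ≤ m → D ⊆ ballF hG c m :=
  ⟨D.sup (G.dist c), fun _ hm _ hv => (mem_ballF hG).2 ((Finset.le_sup hv).trans hm)⟩

lemma dist_iso (hG : G.Connected) (g : G ≃g G) (u v : V) : G.dist (g u) (g v) = G.dist u v := by
  have key : ∀ (g : G ≃g G) (u v : V), G.dist (g u) (g v) ≤ G.dist u v := by
    intro g u v
    obtain ⟨p, hp⟩ := hG.exists_walk_length_eq_dist u v
    simpa [hp] using dist_le (p.map g.toHom)
  refine le_antisymm (key g u v) ?_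
  simpa using key g.symm (g u) (g v)

lemma kernel_bound (hG : G.IsTree) [G.LocallyFinite] {d : ℕ} (hd : ∀ v, G.degree v ≤ d)
    {θ r : ℝ} (hθ : 0 ≤ θ) (hr : θ < r) (h1 : θ * r * (d - 1) < 1) :
    ∃ C : ℝ, 1 ≤ C ∧ ∀ (u w : V) (D : Finset V),
      ∑ y ∈ D, θ ^ G.dist u y * r ^ G.dist w y ≤ C * r ^ G.dist w u := by
  have hr0 : 0 < r := hθ.trans_lt hr
  have hc := hG.connected
  rcases Nat.eq_zero_or_pos d with rfl | hdpos
  · refine ⟨1, le_rfl, fun u w D => ?_⟩
    have all : ∀ y, y = u := fun y => by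
      by_contra h
      obtain ⟨p, hp, -⟩ := exists_parent hc h
      have := hd y
      rw [Nat.le_zero, ← card_neighborFinset_eq_degree, Finset.card_eq_zero] at this
      have h2 := (mem_neighborFinset G y p).2 hp
      simp [this] at h2
    calc _ ≤ ∑ y ∈ {u}, θ ^ G.dist u y * r ^ G.dist w y :=
          Finset.sum_le_sum_of_subset_of_nonneg (fun y _ => by simp [all y])
            fun _ _ _ => by positivity
      _ = _ := by simp
  have hd1 : (1 : ℝ) ≤ d := by exact_mod_cast hdpos
  set C1 := 1 / (1 - θ * r * (d - 1)) with hC1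
  have a1 : 0 < 1 - θ * r * (d - 1) := by linarith
  have a2 : 0 < 1 - θ / r := by rw [sub_pos, div_lt_one hr0]; exact hr
  set C2 := (1 + θ * r * d * C1) / (1 - θ / r) with hC2
  have e1 : C1 = 1 + θ * r * (d - 1) * C1 := by rw [hC1]; field_simp; ring
  have e2 : C2 = 1 + θ * r * d * C1 + θ / r * C2 := by
    have : C2 * (1 - θ / r) = 1 + θ * r * d * C1 := div_mul_cancel₀ _ a2.ne'
    linarith
  have p1 : 0 < C1 := by positivity
  have p2 : 0 < C2 := by positivity
  have q1 : 0 ≤ θ * r * C1 := by positivity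
  have q2 : 0 ≤ θ / r * C2 := by positivity
  have q3 : 0 ≤ θ * r * (d - 1) * C1 := by have : (0 : ℝ) ≤ d - 1 := by linarith
                                           positivity
  have le12 : C1 ≤ C2 := by nlinarith
  refine ⟨C2, by linarith, fun u w D0 => ?_⟩
  obtain ⟨n, hn⟩ := subset_ballF hc u D0
  set D := ballF hc u n
  have hD : GoodAt G u D := good_ballF hc u n
  let away : V → Prop := fun y =>
    ∃ p, G.Adj y p ∧ G.dist u p + 1 = G.dist u y ∧ G.dist w p + 1 = G.dist w y
  let ψ : V → ℝ := fun y => (if away y then C1 else C2) * r ^ G.dist w y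
  have ψ0 : ∀ y, 0 ≤ ψ y := fun y => by simp only [ψ]; split_ifs <;> positivity
  have ψ2 : ∀ y, ψ y ≤ C2 * r ^ G.dist w y := fun y => by
    simp only [ψ]; split_ifs
    · exact mul_le_mul_of_nonneg_right le12 (by positivity)
    · exact le_rfl
  let ch : V → Finset V := fun y => (G.neighborFinset y).filter fun c => G.dist u c = G.dist u y + 1
  have far : ∀ y, ∀ c ∈ ch y, G.dist w c = G.dist w y + 1 → ψ c = C1 * r * r ^ G.dist w y := by
    intro y c hc h
    simp only [ch, Finset.mem_filter, mem_neighborFinset] at hc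
    have : away c := ⟨y, hc.1.symm, hc.2.symm, h.symm⟩
    simp only [ψ, this, if_true, h]; ring
  have loc : ∀ y, r ^ G.dist w y + θ * ∑ c ∈ ch y, ψ c ≤ ψ y := by
    intro y
    have hp : 0 < r ^ G.dist w y := by positivity
    by_cases hy : away y
    · obtain ⟨p, h1, h2, h3⟩ := id hy
      have sub : ch y ⊆ (G.neighborFinset y).erase p := fun c hc => by
        simp only [ch, Finset.mem_filter] at hc
        exact Finset.mem_erase.2 ⟨by rintro rfl; omega, hc.1⟩
      have card : ((ch y).card : ℝ) ≤ d - 1 := by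
        have := Finset.card_le_card sub
        rw [Finset.card_erase_of_mem ((mem_neighborFinset G y p).2 h1),
          card_neighborFinset_eq_degree] at this
        have h4 := hd y
        have : (ch y).card + 1 ≤ d := by omega
        have : ((ch y).card : ℝ) + 1 ≤ d := by exact_mod_cast this
        linarith
      rw [Finset.sum_congr rfl fun c hc => far y c hc (by
        have h5 := Finset.mem_erase.1 (sub hc)
        have h6 := (mem_neighborFinset G y c).1 h5.2
        rcases hG.dist_eq_dist_add_one_of_adj w h6 with h | h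
        · exact absurd (parent_unique hG h6 h1 h.symm h3) h5.1
        · exact h), Finset.sum_const, nsmul_eq_mul]
      simp only [ψ, hy, if_true]
      have := mul_le_mul_of_nonneg_right card (mul_nonneg q1 hp.le)
      nlinarith
    · rw [← Finset.sum_filter_add_sum_filter_not (ch y) (fun c => G.dist w c = G.dist w y + 1)]
      have s1 : ∑ c ∈ (ch y).filter (fun c => G.dist w c = G.dist w y + 1), ψ c ≤
          d * (C1 * r * r ^ G.dist w y) := by
        rw [Finset.sum_congr rfl fun c hc => far y c (Finset.mem_filter.1 hc).1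
          (Finset.mem_filter.1 hc).2, Finset.sum_const, nsmul_eq_mul]
        refine mul_le_mul_of_nonneg_right ?_ (by positivity)
        have := (Finset.card_le_card ((Finset.filter_subset
          (fun c => G.dist w c = G.dist w y + 1) (ch y)).trans (Finset.filter_subset _ _)))
        rw [card_neighborFinset_eq_degree] at this
        exact_mod_cast this.trans (hd y)
      have near : ∀ c ∈ (ch y).filter (fun c => ¬ G.dist w c = G.dist w y + 1),
          G.Adj y c ∧ G.dist w c + 1 = G.dist w y := fun c hc => by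
        simp only [ch, Finset.mem_filter, mem_neighborFinset] at hc
        exact ⟨hc.1.1, ((hG.dist_eq_dist_add_one_of_adj w hc.1.1).resolve_right hc.2).symm⟩
      have s2 : ∑ c ∈ (ch y).filter (fun c => ¬ G.dist w c = G.dist w y + 1), ψ c ≤
          C2 / r * r ^ G.dist w y := by
        refine (Finset.sum_le_card_nsmul _ _ (C2 / r * r ^ G.dist w y) fun c hc => ?_).trans ?_
        · refine (ψ2 c).trans (le_of_eq ?_)
          rw [← (near c hc).2, pow_succ]; field_simp
        · rw [nsmul_eq_mul]
          refine mul_le_of_le_one_left (by positivity) ?_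
          exact_mod_cast Finset.card_le_one.2 fun a ha b hb =>
            parent_unique hG (near a ha).1 (near b hb).1 (near a ha).2 (near b hb).2
      simp only [ψ, hy, if_false] at s1 s2 ⊢
      have t1 := mul_le_mul_of_nonneg_left (add_le_add s1 s2) hθ
      have t2 : θ * (d * (C1 * r * r ^ G.dist w y) + C2 / r * r ^ G.dist w y) =
          (θ * r * d * C1 + θ / r * C2) * r ^ G.dist w y := by ring
      nlinarith
  have hpar : ∀ c, ∃ p, c ≠ u → G.Adj c p ∧ G.dist u p + 1 = G.dist u c := fun c => by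
    by_cases h : c = u
    · exact ⟨u, fun h' => (h' h).elim⟩
    · obtain ⟨p, hp⟩ := exists_parent hc h; exact ⟨p, fun _ => hp⟩
  choose par hpar using hpar
  have tel : ∑ c ∈ D.erase u, θ ^ G.dist u c * ψ c ≤
      ∑ y ∈ D, θ ^ G.dist u y * (θ * ∑ c ∈ ch y, ψ c) := by
    rw [← Finset.sum_fiberwise_of_maps_to (s := D.erase u) (t := D) (g := par) fun c hc => by
      rw [Finset.mem_erase] at hc
      exact hD.2 c hc.2 _ (hpar c hc.1).1 (hpar c hc.1).2]
    refine Finset.sum_le_sum fun y _ => ?_
    rw [← mul_assoc, Finset.mul_sum, ← pow_succ]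
    refine le_trans (Finset.sum_le_sum_of_subset_of_nonneg (t := ch y) ?_
      fun c _ _ => mul_nonneg (by positivity) (ψ0 c)) (le_of_eq ?_)
    · intro c hc
      rw [Finset.mem_filter, Finset.mem_erase] at hc
      obtain ⟨⟨h1, -⟩, rfl⟩ := hc
      simp only [ch, Finset.mem_filter, mem_neighborFinset]
      exact ⟨(hpar c h1).1.symm, (hpar c h1).2.symm⟩
    · exact Finset.sum_congr rfl fun c hc => by rw [(Finset.mem_filter.1 hc).2]
  have s1 : ∑ y ∈ D, θ ^ G.dist u y * r ^ G.dist w y +
      ∑ y ∈ D, θ ^ G.dist u y * (θ * ∑ c ∈ ch y, ψ c) ≤ ∑ y ∈ D, θ ^ G.dist u y * ψ y := by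
    rw [← Finset.sum_add_distrib]
    refine Finset.sum_le_sum fun y _ => ?_
    rw [← mul_add]
    exact mul_le_mul_of_nonneg_left (loc y) (by positivity)
  have s2 := Finset.add_sum_erase D (fun y => θ ^ G.dist u y * ψ y) hD.1
  simp only [SimpleGraph.dist_self, pow_zero, one_mul] at s2
  have s3 : ∑ y ∈ D0, θ ^ G.dist u y * r ^ G.dist w y ≤
      ∑ y ∈ D, θ ^ G.dist u y * r ^ G.dist w y :=
    Finset.sum_le_sum_of_subset_of_nonneg (hn n le_rfl) fun _ _ _ => by positivity
  linarith [ψ2 u]

end Vale.Agent.P161
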